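import Mathlib

/-!
A smooth function of two real variables that is periodic in both is bounded and uniformly
Lipschitz in the second variable.

TASK KB-BDD (replace the `sorry`, keep the statement exactly).
* bound: `F` is continuous on the compact set `Icc 0 1 ×ˢ Icc 0 π`
  (`IsCompact.exists_bound_of_continuousOn`); every `(x, θ)` is a translate of a point of this
  set by the two periods (`Function.Periodic.exists_mem_Ico₀`, applied to `fun x => F x θ` with
  period `1` and to `fun θ => F x θ` with period `π`).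
* Lipschitz: `θ ↦ F x θ` is differentiable with derivative `fderiv ℝ F' (x, θ) (0, 1)`
  (`F' = fun q => F q.1 q.2`, chain rule with `θ ↦ (x, θ)`), and `q ↦ fderiv ℝ F' q (0, 1)` is
  continuous (`hF.continuous_fderiv`) and again periodic in both variables (differentiate the
  periodicity identities, or note `fderiv` commutes with translations: `fderiv_comp_add_right`),
  so it is bounded by some `K` by the first part; conclude with the mean value inequality
  (`Convex.norm_image_sub_le_of_norm_deriv_le` on `Set.univ`, or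
  `lipschitzWith_of_nnnorm_deriv_le`).
-/

namespace Vale.Agent.H55.KB

open scoped ContDiff

/-- A continuous function of two variables, periodic in both, is bounded. -/
lemma bd_bound (H : ℝ → ℝ → ℝ) (hH : Continuous (fun q : ℝ × ℝ => H q.1 q.2))
    (p1 : ∀ x θ, H (x + 1) θ = H x θ) (p2 : ∀ x θ, H x (θ + Real.pi) = H x θ) :
    ∃ M : ℝ, 0 < M ∧ ∀ x θ, |H x θ| ≤ M := by
  have hK : IsCompact (Set.Icc (0 : ℝ) 1 ×ˢ Set.Icc (0 : ℝ) Real.pi) :=
    isCompact_Icc.prod isCompact_Icc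
  obtain ⟨C, hC⟩ := hK.exists_bound_of_continuousOn hH.continuousOn
  refine ⟨max C 1, lt_of_lt_of_le one_pos (le_max_right _ _), fun x θ => ?_⟩
  have per1 : Function.Periodic (fun x => H x θ) 1 := fun x => p1 x θ
  obtain ⟨x', hx', hxx'⟩ := per1.exists_mem_Ico₀ one_pos x
  have per2 : Function.Periodic (fun θ => H x' θ) Real.pi := fun θ => p2 x' θ
  obtain ⟨θ', hθ', hθθ'⟩ := per2.exists_mem_Ico₀ Real.pi_pos θ
  have h1 : H x θ = H x' θ' := by
    have e1 : H x θ = H x' θ := hxx'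
    have e2 : H x' θ = H x' θ' := hθθ'
    rw [e1, e2]
  have hmem : ((x', θ') : ℝ × ℝ) ∈ Set.Icc (0 : ℝ) 1 ×ˢ Set.Icc (0 : ℝ) Real.pi :=
    ⟨⟨hx'.1, hx'.2.le⟩, ⟨hθ'.1, hθ'.2.le⟩⟩
  have h2 := hC (x', θ') hmem
  rw [Real.norm_eq_abs] at h2
  rw [h1]
  exact le_trans h2 (le_max_left _ _)

theorem exists_bound_lipschitz (F : ℝ → ℝ → ℝ)
    (hF : ContDiff ℝ ∞ (fun q : ℝ × ℝ => F q.1 q.2))
    (p1 : ∀ x θ, F (x + 1) θ = F x θ) (p2 : ∀ x θ, F x (θ + Real.pi) = F x θ) :
    ∃ M K : ℝ, 0 < M ∧ 0 ≤ K ∧ (∀ x θ, |F x θ| ≤ M) ∧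
      ∀ x θ₁ θ₂, |F x θ₁ - F x θ₂| ≤ K * |θ₁ - θ₂| := by
  set F' : ℝ × ℝ → ℝ := fun q => F q.1 q.2 with hF'
  obtain ⟨M, hM, hMb⟩ := bd_bound F hF.continuous p1 p2
  set D : ℝ → ℝ → ℝ := fun x θ => fderiv ℝ F' (x, θ) (0, 1) with hD
  have hDc : Continuous (fun q : ℝ × ℝ => D q.1 q.2) := by
    have h1 : Continuous (fun q : ℝ × ℝ => fderiv ℝ F' q) := hF.continuous_fderiv (by simp)
    exact h1.clm_apply continuous_const
  have hper : ∀ a : ℝ × ℝ, (∀ q, F' (q + a) = F' q) → ∀ q, fderiv ℝ F' (q + a) = fderiv ℝ F' q := by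
    intro a ha q
    have h : (fun y => F' (y + a)) = F' := funext ha
    have h2 : fderiv ℝ (fun y => F' (y + a)) q = fderiv ℝ F' (q + a) := fderiv_comp_add_right a
    rw [h] at h2
    exact h2.symm
  have hD1 : ∀ x θ, D (x + 1) θ = D x θ := by
    intro x θ
    have h := hper (1, 0) (fun q => by
      simp only [hF', Prod.fst_add, Prod.snd_add, add_zero]
      exact p1 q.1 q.2) (x, θ)
    simp only [hD]
    have e : ((x, θ) : ℝ × ℝ) + (1, 0) = (x + 1, θ) := by simp
    rw [← e, h]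
  have hD2 : ∀ x θ, D x (θ + Real.pi) = D x θ := by
    intro x θ
    have h := hper (0, Real.pi) (fun q => by
      simp only [hF', Prod.fst_add, Prod.snd_add, add_zero]
      exact p2 q.1 q.2) (x, θ)
    simp only [hD]
    have e : ((x, θ) : ℝ × ℝ) + (0, Real.pi) = (x, θ + Real.pi) := by simp
    rw [← e, h]
  obtain ⟨K, hK, hKb⟩ := bd_bound D hDc hD1 hD2
  have hder : ∀ x θ, HasDerivAt (fun θ => F x θ) (D x θ) θ := by
    intro x θ
    have h1 : HasFDerivAt F' (fderiv ℝ F' (x, θ)) (x, θ) :=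
      (hF.differentiable (by simp) (x, θ)).hasFDerivAt
    have h2 : HasDerivAt (fun θ : ℝ => ((x, θ) : ℝ × ℝ)) ((0, 1) : ℝ × ℝ) θ :=
      (hasDerivAt_const θ x).prodMk (hasDerivAt_id θ)
    exact h1.comp_hasDerivAt θ h2
  refine ⟨M, K, hM, hK.le, hMb, fun x θ₁ θ₂ => ?_⟩
  have h := Convex.norm_image_sub_le_of_norm_deriv_le (f := fun θ => F x θ) (C := K)
    (s := Set.univ) (x := θ₂) (y := θ₁)
    (fun θ _ => (hder x θ).differentiableAt)
    (fun θ _ => by
      rw [(hder x θ).deriv, Real.norm_eq_abs]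
      exact hKb x θ)
    convex_univ (Set.mem_univ _) (Set.mem_univ _)
  rw [Real.norm_eq_abs, Real.norm_eq_abs] at h
  exact h

end Vale.Agent.H55.KB
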