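import Mathlib
import Vale.Agent.H55.Profile

/-!
Two smooth cut-off functions: an even one vanishing near `0`, and an odd step.

TASK KB-CUT (replace the two `sorry`, keep the statements exactly).
* `exists_nu`: `ν x = Real.smoothTransition ((x ^ 2 - (a / 2) ^ 2) / (a ^ 2 - (a / 2) ^ 2))`
  (`Real.smoothTransition.contDiff`, `.zero_of_nonpos`, `.one_of_one_le`, `.nonneg`, `.le_one`).
* `exists_chi`: `χ x = Real.smoothTransition (32 * x - 2) - Real.smoothTransition (-32 * x - 2)`;
  it is `0` for `|x| ≤ 1/16`, `1` for `x ≥ 3/32`, odd, between `0` and `1` for `x ≥ 0`.  Its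
  derivative is bounded: the derivative of `Real.smoothTransition` is continuous and vanishes
  outside `Icc 0 1` (see `Vale.Agent.H55.Imm.exists_dst_bound`, `hasDerivAt_st`, `dst` in
  `Vale/Agent/H55/Profile.lean`, which may be imported), so `C = 64 * M + 1` works.
-/

namespace Vale.Agent.H55.KB

open scoped ContDiff

theorem exists_nu (a : ℝ) (ha : 0 < a) :
    ∃ ν : ℝ → ℝ, ContDiff ℝ ∞ ν ∧ (∀ x, ν (-x) = ν x) ∧ (∀ x, 0 ≤ ν x) ∧ (∀ x, ν x ≤ 1) ∧
      (∀ x, |x| ≤ a / 2 → ν x = 0) ∧ (∀ x, a ≤ |x| → ν x = 1) := by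
  have hden : 0 < a ^ 2 - (a / 2) ^ 2 := by nlinarith
  refine ⟨fun x => Real.smoothTransition ((x ^ 2 - (a / 2) ^ 2) / (a ^ 2 - (a / 2) ^ 2)),
    ?_, ?_, ?_, ?_, ?_, ?_⟩
  · exact Real.smoothTransition.contDiff.comp (by fun_prop)
  · intro x
    simp only [neg_sq]
  · intro x
    exact Real.smoothTransition.nonneg _
  · intro x
    exact Real.smoothTransition.le_one _
  · intro x hx
    apply Real.smoothTransition.zero_of_nonpos
    apply div_nonpos_of_nonpos_of_nonneg _ hden.le
    have h1 : x ^ 2 ≤ (a / 2) ^ 2 := by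
      rw [← sq_abs x]
      exact pow_le_pow_left₀ (abs_nonneg x) hx 2
    linarith
  · intro x hx
    apply Real.smoothTransition.one_of_one_le
    rw [le_div_iff₀ hden]
    have h1 : a ^ 2 ≤ x ^ 2 := by
      rw [← sq_abs x]
      exact pow_le_pow_left₀ ha.le hx 2
    linarith

theorem exists_chi :
    ∃ (χ : ℝ → ℝ) (C : ℝ), 0 < C ∧ ContDiff ℝ ∞ χ ∧ (∀ x, χ (-x) = -χ x) ∧
      (∀ x, |x| ≤ 1 / 16 → χ x = 0) ∧ (∀ x, 3 / 32 ≤ x → χ x = 1) ∧
      (∀ x, 0 ≤ x → 0 ≤ χ x ∧ χ x ≤ 1) ∧ (∀ x, |deriv χ x| ≤ C) := by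
  obtain ⟨M, hM0, hM⟩ := Vale.Agent.H55.Imm.exists_dst_bound
  refine ⟨fun x => Real.smoothTransition (32 * x - 2) - Real.smoothTransition (-32 * x - 2),
    64 * M + 1, by positivity, ?_, ?_, ?_, ?_, ?_, ?_⟩
  · exact (Real.smoothTransition.contDiff.comp (by fun_prop)).sub
      (Real.smoothTransition.contDiff.comp (by fun_prop))
  · intro x
    have h1 : (32 : ℝ) * -x - 2 = -32 * x - 2 := by ring
    have h2 : (-32 : ℝ) * -x - 2 = 32 * x - 2 := by ring
    show Real.smoothTransition (32 * -x - 2) - Real.smoothTransition (-32 * -x - 2)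
      = -(Real.smoothTransition (32 * x - 2) - Real.smoothTransition (-32 * x - 2))
    rw [h1, h2]
    ring
  · intro x hx
    rw [abs_le] at hx
    show Real.smoothTransition (32 * x - 2) - Real.smoothTransition (-32 * x - 2) = 0
    rw [Real.smoothTransition.zero_of_nonpos (by linarith),
      Real.smoothTransition.zero_of_nonpos (by linarith)]
    ring
  · intro x hx
    show Real.smoothTransition (32 * x - 2) - Real.smoothTransition (-32 * x - 2) = 1
    rw [Real.smoothTransition.one_of_one_le (by linarith),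
      Real.smoothTransition.zero_of_nonpos (by linarith)]
    ring
  · intro x hx
    show 0 ≤ Real.smoothTransition (32 * x - 2) - Real.smoothTransition (-32 * x - 2) ∧
      Real.smoothTransition (32 * x - 2) - Real.smoothTransition (-32 * x - 2) ≤ 1
    rw [Real.smoothTransition.zero_of_nonpos (show -32 * x - 2 ≤ 0 by linarith), sub_zero]
    exact ⟨Real.smoothTransition.nonneg _, Real.smoothTransition.le_one _⟩
  · intro x
    have h1 : HasDerivAt (fun x : ℝ => Real.smoothTransition (32 * x - 2))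
        (Vale.Agent.H55.Imm.dst (32 * x - 2) * 32) x := by
      have hin : HasDerivAt (fun x : ℝ => 32 * x - 2) 32 x := by
        have := ((hasDerivAt_id x).const_mul (32 : ℝ)).sub_const 2
        simpa using this
      exact (Vale.Agent.H55.Imm.hasDerivAt_st (32 * x - 2)).comp x hin
    have h2 : HasDerivAt (fun x : ℝ => Real.smoothTransition (-32 * x - 2))
        (Vale.Agent.H55.Imm.dst (-32 * x - 2) * (-32)) x := by
      have hin : HasDerivAt (fun x : ℝ => -32 * x - 2) (-32) x := by
        have := ((hasDerivAt_id x).const_mul (-32 : ℝ)).sub_const 2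
        simpa using this
      exact (Vale.Agent.H55.Imm.hasDerivAt_st (-32 * x - 2)).comp x hin
    have h3 := (h1.sub h2).deriv
    have h4 : deriv (fun x : ℝ => Real.smoothTransition (32 * x - 2)
        - Real.smoothTransition (-32 * x - 2)) x
        = Vale.Agent.H55.Imm.dst (32 * x - 2) * 32
          - Vale.Agent.H55.Imm.dst (-32 * x - 2) * (-32) := h3
    rw [h4]
    have h5 := hM (32 * x - 2)
    have h6 := hM (-32 * x - 2)
    rw [abs_le] at h5 h6 ⊢
    constructor <;> linarith [h5.1, h5.2, h6.1, h6.2]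

end Vale.Agent.H55.KB
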