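import Mathlib

/-!
Klein bottle immersions: definitions shared by the files in this folder.

The equivariant ansatz `Φ(x, y) = (ρ₁ e^{i(κ₁ y + θ₁)}, ρ₂ e^{i(κ₂ y + θ₂)})` with
`ρ₁ = g sin Θ / κ₁`, `ρ₂ = g cos Θ / κ₂` reduces the isometric immersion problem to one scalar
relation (`ProfEq`) for an angle profile `Θ` and a twist profile `D`.
-/

namespace Vale.Agent.H55.KB

open scoped ContDiff

/-- Standing assumptions on the pair `(g, W)`: smooth, `1`-periodic, even, positive. -/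
structure Data (g W : ℝ → ℝ) : Prop where
  sg : ContDiff ℝ ∞ g
  sW : ContDiff ℝ ∞ W
  pg : ∀ x, g (x + 1) = g x
  pW : ∀ x, W (x + 1) = W x
  eg : ∀ x, g (-x) = g x
  eW : ∀ x, W (-x) = W x
  gpos : ∀ x, 0 < g x
  Wpos : ∀ x, 0 < W x

/-- Coefficient of `p²` in `Qform`. -/
noncomputable def Acoef (g : ℝ → ℝ) (κ1 κ2 x θ : ℝ) : ℝ :=
  g x ^ 2 * (Real.cos θ ^ 2 / κ1 ^ 2 + Real.sin θ ^ 2 / κ2 ^ 2)

/-- Half the coefficient of `p` in `Qform`. -/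
noncomputable def Bcoef (g : ℝ → ℝ) (κ1 κ2 x θ : ℝ) : ℝ :=
  g x * deriv g x * Real.sin θ * Real.cos θ * (1 / κ1 ^ 2 - 1 / κ2 ^ 2)

/-- Constant coefficient in `Qform`. -/
noncomputable def Ccoef (g : ℝ → ℝ) (κ1 κ2 x θ : ℝ) : ℝ :=
  deriv g x ^ 2 * (Real.sin θ ^ 2 / κ1 ^ 2 + Real.cos θ ^ 2 / κ2 ^ 2)

/-- The quadratic form `ρ₁'² + ρ₂'²` for `ρ₁ = g sin θ / κ₁`, `ρ₂ = g cos θ / κ₂`, `θ' = p`. -/
noncomputable def Qform (g : ℝ → ℝ) (κ1 κ2 x θ p : ℝ) : ℝ :=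
  (deriv g x * Real.sin θ + g x * Real.cos θ * p) ^ 2 / κ1 ^ 2
    + (deriv g x * Real.cos θ - g x * Real.sin θ * p) ^ 2 / κ2 ^ 2

theorem Qform_eq (g : ℝ → ℝ) (κ1 κ2 x θ p : ℝ) :
    Qform g κ1 κ2 x θ p
      = Acoef g κ1 κ2 x θ * p ^ 2 + 2 * Bcoef g κ1 κ2 x θ * p + Ccoef g κ1 κ2 x θ := by
  unfold Qform Acoef Bcoef Ccoef
  ring

theorem Qform_zero (g : ℝ → ℝ) (κ1 κ2 x θ : ℝ) :
    Qform g κ1 κ2 x θ 0 = Ccoef g κ1 κ2 x θ := by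
  rw [Qform_eq]; ring

theorem Qform_neg_neg (g : ℝ → ℝ) (κ1 κ2 x θ p : ℝ) :
    Qform g κ1 κ2 x (-θ) (-p) = Qform g κ1 κ2 x θ p := by
  unfold Qform
  rw [Real.sin_neg, Real.cos_neg]
  ring

/-- The positive root in `p` of `Qform g κ1 κ2 x θ p = W x`. -/
noncomputable def Hzero (g W : ℝ → ℝ) (κ1 κ2 x θ : ℝ) : ℝ :=
  (-Bcoef g κ1 κ2 x θ
      + Real.sqrt (Bcoef g κ1 κ2 x θ ^ 2
          - Acoef g κ1 κ2 x θ * (Ccoef g κ1 κ2 x θ - W x))) / Acoef g κ1 κ2 x θ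

/-- The value of the twist profile on the plateau `Θ = π/4`. -/
noncomputable def Dpl (g W : ℝ → ℝ) (κ1 κ2 x : ℝ) : ℝ :=
  2 * Real.sqrt (W x - Qform g κ1 κ2 x (Real.pi / 4) 0) / g x

/-- The profile equation. -/
def ProfEq (g W : ℝ → ℝ) (κ1 κ2 : ℝ) (Θ D : ℝ → ℝ) : Prop :=
  ∀ x, Qform g κ1 κ2 x (Θ x) (deriv Θ x)
    + g x ^ 2 * Real.sin (Θ x) ^ 2 * Real.cos (Θ x) ^ 2 * D x ^ 2 = W x

/-- Smallness of the quadratic form for slopes bounded by `P`. -/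
def Small (g W : ℝ → ℝ) (κ1 κ2 P : ℝ) : Prop :=
  ∀ x θ p, |p| ≤ P → Qform g κ1 κ2 x θ p < W x

/-- Translation by half a period. -/
noncomputable def shiftHalf (f : ℝ → ℝ) : ℝ → ℝ := fun x => f (x + 1 / 2)

theorem deriv_shiftHalf (f : ℝ → ℝ) (x : ℝ) : deriv (shiftHalf f) x = deriv f (x + 1 / 2) := by
  unfold shiftHalf
  exact deriv_comp_add_const f (1 / 2) x

theorem Qform_shiftHalf (g : ℝ → ℝ) (κ1 κ2 x θ p : ℝ) :
    Qform (shiftHalf g) κ1 κ2 x θ p = Qform g κ1 κ2 (x + 1 / 2) θ p := by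
  unfold Qform
  rw [deriv_shiftHalf]
  rfl

theorem Data.shiftHalf {g W : ℝ → ℝ} (h : Data g W) : Data (shiftHalf g) (shiftHalf W) where
  sg := h.sg.comp (by fun_prop)
  sW := h.sW.comp (by fun_prop)
  pg := fun x => by
    unfold KB.shiftHalf
    rw [show x + 1 + 1 / 2 = x + 1 / 2 + 1 by ring, h.pg]
  pW := fun x => by
    unfold KB.shiftHalf
    rw [show x + 1 + 1 / 2 = x + 1 / 2 + 1 by ring, h.pW]
  eg := fun x => by
    unfold KB.shiftHalf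
    rw [show -x + 1 / 2 = -(x + 1 / 2) + 1 by ring, h.pg, h.eg]
  eW := fun x => by
    unfold KB.shiftHalf
    rw [show -x + 1 / 2 = -(x + 1 / 2) + 1 by ring, h.pW, h.eW]
  gpos := fun x => h.gpos _
  Wpos := fun x => h.Wpos _

theorem Small.shiftHalf {g W : ℝ → ℝ} {κ1 κ2 P : ℝ} (h : Small g W κ1 κ2 P) :
    Small (shiftHalf g) (shiftHalf W) κ1 κ2 P := by
  intro x θ p hp
  rw [Qform_shiftHalf]
  exact h (x + 1 / 2) θ p hp

end Vale.Agent.H55.KB
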