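import Mathlib

/-!
The twist profile `D = ν √Nt / (g sin Θ cos Θ)` is smooth and odd when `ν` vanishes near `0`.

TASK KB-DIV (done; proof below follows this sketch).
Take `D x = ν x * √(Nt x) / (g x * sin (Θ x) * cos (Θ x))` for all `x`.
* `Θ 0 = 0` (odd).  For `x > 0`: `0 < Θ x ≤ π/4`, so `sin (Θ x) > 0`, `cos (Θ x) > 0`; for
  `x < 0` use oddness of `Θ`: `sin (Θ x) < 0`, `cos (Θ x) > 0`.  So the denominator is nonzero
  for `x ≠ 0`.
* smooth (`contDiff_iff_contDiffAt`): at `x` with `|x| < a` the function vanishes on the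
  neighbourhood `|y| < a` (`ν = 0` there), so it is eventually equal to `0`; at `x ≠ 0` it is a
  quotient of smooth functions with nonvanishing denominator (`ContDiffAt.div`,
  `ContDiff.sqrt` / `ContDiffAt.sqrt` as `Nt x ≠ 0`).
* odd: `ν, Nt, g` even, `sin ∘ Θ` odd, `cos ∘ Θ` even.
* the square identity: for `x ≠ 0` cancel the denominator (`Real.sq_sqrt`); at `x = 0` both
  sides vanish (`sin (Θ 0) = 0`, `ν 0 = 0`).
-/

namespace Vale.Agent.H55.KB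

open scoped ContDiff

theorem dv_theta_zero (Θ : ℝ → ℝ) (oΘ : ∀ x, Θ (-x) = -Θ x) : Θ 0 = 0 := by
  have h := oΘ 0
  rw [neg_zero] at h
  linarith

theorem dv_den_ne (g Θ : ℝ → ℝ) (gpos : ∀ x, 0 < g x) (oΘ : ∀ x, Θ (-x) = -Θ x)
    (hΘpos : ∀ x, 0 < x → 0 < Θ x ∧ Θ x ≤ Real.pi / 4) (x : ℝ) (hx : x ≠ 0) :
    g x * Real.sin (Θ x) * Real.cos (Θ x) ≠ 0 := by
  have hpi := Real.pi_pos
  have key : ∀ y, 0 < y → 0 < Real.sin (Θ y) ∧ 0 < Real.cos (Θ y) := by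
    intro y hy
    obtain ⟨h1, h2⟩ := hΘpos y hy
    exact ⟨Real.sin_pos_of_pos_of_lt_pi h1 (by linarith),
      Real.cos_pos_of_mem_Ioo ⟨by linarith, by linarith⟩⟩
  rcases lt_or_gt_of_ne hx with h | h
  · obtain ⟨h1, h2⟩ := key (-x) (by linarith)
    rw [oΘ x, Real.sin_neg] at h1
    rw [oΘ x, Real.cos_neg] at h2
    exact mul_ne_zero (mul_ne_zero (gpos x).ne' (neg_pos.mp h1).ne) h2.ne'
  · obtain ⟨h1, h2⟩ := key x h
    exact mul_ne_zero (mul_ne_zero (gpos x).ne' h1.ne') h2.ne'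

theorem exists_D (g ν Θ Nt : ℝ → ℝ) (a : ℝ) (ha : 0 < a)
    (hg : ContDiff ℝ ∞ g) (hν : ContDiff ℝ ∞ ν) (hΘ : ContDiff ℝ ∞ Θ) (hN : ContDiff ℝ ∞ Nt)
    (eg : ∀ x, g (-x) = g x) (gpos : ∀ x, 0 < g x) (eν : ∀ x, ν (-x) = ν x)
    (oΘ : ∀ x, Θ (-x) = -Θ x) (eN : ∀ x, Nt (-x) = Nt x) (Npos : ∀ x, 0 < Nt x)
    (hν0 : ∀ x, |x| < a → ν x = 0)
    (hΘpos : ∀ x, 0 < x → 0 < Θ x ∧ Θ x ≤ Real.pi / 4) :
    ∃ D : ℝ → ℝ, ContDiff ℝ ∞ D ∧ (∀ x, D (-x) = -D x) ∧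
      (∀ x, g x ^ 2 * Real.sin (Θ x) ^ 2 * Real.cos (Θ x) ^ 2 * D x ^ 2 = ν x ^ 2 * Nt x) ∧
      ∀ x, 0 < x →
        D x = ν x * Real.sqrt (Nt x) / (g x * Real.sin (Θ x) * Real.cos (Θ x)) := by
  have hΘ0 : Θ 0 = 0 := dv_theta_zero Θ oΘ
  have hden : ∀ x, x ≠ 0 → g x * Real.sin (Θ x) * Real.cos (Θ x) ≠ 0 :=
    dv_den_ne g Θ gpos oΘ hΘpos
  refine ⟨fun x => ν x * Real.sqrt (Nt x) / (g x * Real.sin (Θ x) * Real.cos (Θ x)),
    ?_, ?_, ?_, ?_⟩
  · rw [contDiff_iff_contDiffAt]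
    intro x
    by_cases hx : |x| < a
    · have hev : (fun x => ν x * Real.sqrt (Nt x) / (g x * Real.sin (Θ x) * Real.cos (Θ x)))
          =ᶠ[nhds x] fun _ => (0 : ℝ) := by
        have hopen : IsOpen {y : ℝ | |y| < a} := isOpen_lt continuous_abs continuous_const
        filter_upwards [hopen.mem_nhds hx] with y hy
        rw [hν0 y hy, zero_mul, zero_div]
      exact contDiffAt_const.congr_of_eventuallyEq hev
    · have hx0 : x ≠ 0 := by
        rintro rfl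
        apply hx
        rw [abs_zero]
        exact ha
      have hnum : ContDiffAt ℝ ∞ (fun x => ν x * Real.sqrt (Nt x)) x :=
        hν.contDiffAt.mul (hN.contDiffAt.sqrt (Npos x).ne')
      have hd : ContDiffAt ℝ ∞ (fun x => g x * Real.sin (Θ x) * Real.cos (Θ x)) x :=
        ((hg.mul (Real.contDiff_sin.comp hΘ)).mul (Real.contDiff_cos.comp hΘ)).contDiffAt
      exact hnum.div hd (hden x hx0)
  · intro x
    show ν (-x) * Real.sqrt (Nt (-x)) / (g (-x) * Real.sin (Θ (-x)) * Real.cos (Θ (-x)))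
      = -(ν x * Real.sqrt (Nt x) / (g x * Real.sin (Θ x) * Real.cos (Θ x)))
    rw [eg, eν, oΘ, eN, Real.sin_neg, Real.cos_neg, mul_neg, neg_mul, div_neg]
  · intro x
    show g x ^ 2 * Real.sin (Θ x) ^ 2 * Real.cos (Θ x) ^ 2
        * (ν x * Real.sqrt (Nt x) / (g x * Real.sin (Θ x) * Real.cos (Θ x))) ^ 2
      = ν x ^ 2 * Nt x
    by_cases hx0 : x = 0
    · subst hx0
      have hν00 : ν 0 = 0 := hν0 0 (by rw [abs_zero]; exact ha)
      rw [hΘ0, hν00, Real.sin_zero]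
      ring
    · have hd := hden x hx0
      have hs := Real.sq_sqrt (Npos x).le
      have e1 : g x * Real.sin (Θ x) * Real.cos (Θ x)
          * (ν x * Real.sqrt (Nt x) / (g x * Real.sin (Θ x) * Real.cos (Θ x)))
          = ν x * Real.sqrt (Nt x) := by
        rw [mul_comm]
        exact div_mul_cancel₀ _ hd
      calc g x ^ 2 * Real.sin (Θ x) ^ 2 * Real.cos (Θ x) ^ 2
            * (ν x * Real.sqrt (Nt x) / (g x * Real.sin (Θ x) * Real.cos (Θ x))) ^ 2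
          = (g x * Real.sin (Θ x) * Real.cos (Θ x)
              * (ν x * Real.sqrt (Nt x) / (g x * Real.sin (Θ x) * Real.cos (Θ x)))) ^ 2 := by
            ring
        _ = (ν x * Real.sqrt (Nt x)) ^ 2 := by rw [e1]
        _ = ν x ^ 2 * Nt x := by rw [mul_pow, hs]
  · intro x _
    rfl

end Vale.Agent.H55.KB
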