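import Vale.Agent.H55.KB.Defs

/-!
Gluing the local solutions at the two crossings `x = 0` and `x = 1/2` into an odd `1`-periodic
solution of the profile equation.

TASK KB-GLUE (replace the `sorry`, keep the statement exactly).
Let `ψ u = Real.smoothTransition (4 * u - 1/2)` (`0` for `u ≤ 1/8`, `1` for `u ≥ 3/8`) and
  `FΘ u = (1 - ψ u) * ΘA u - ψ u * ΘB (u - 1/2)`,
  `FD u = (1 - ψ u) * DA u - ψ u * DB (u - 1/2)`,
  `Θ x = FΘ (x - ⌊x + 1/4⌋)`,  `D x = FD (x - ⌊x + 1/4⌋)`.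
Key facts (all from the plateau hypotheses, oddness and the symmetries of the data):
(a) for `1/8 ≤ u ≤ 3/8`: `ΘA u = π/4 = -ΘB (u - 1/2)` and
    `DA u = Dpl g W κ1 κ2 u = -DB (u - 1/2)`, because
    `Dpl (shiftHalf g) (shiftHalf W) κ1 κ2 (1/2 - u) = Dpl g W κ1 κ2 u` (`g, W` even and
    `1`-periodic; `deriv g` odd and `1`-periodic, see `deriv_shiftHalf`, `Qform_shiftHalf`).
    Hence `FΘ = ΘA`, `FD = DA` on `u < 3/8` and `FΘ u = -ΘB (u - 1/2)`,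
    `FD u = -DB (u - 1/2)` on `1/8 < u`.
(b) seam: for `-3/8 < u < -1/8`: `FΘ (u + 1) = -ΘB (u + 1/2) = -π/4 = ΘA u = FΘ u` and
    `FD (u + 1) = -DB (u + 1/2) = -Dpl g W κ1 κ2 (-u) = DA u = FD u`
    (`Dpl (shiftHalf g) (shiftHalf W) κ1 κ2 (u + 1/2) = Dpl g W κ1 κ2 u = Dpl g W κ1 κ2 (-u)`).
(c) so `Θ x = FΘ x`, `D x = FD x` for `-3/8 < x < 7/8`, both are `1`-periodic
    (`Int.floor_add_one`), and for every `x` there is `k : ℤ` with `Θ y = FΘ (y - k)`,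
    `D y = FD (y - k)` for `y` near `x` and `-3/8 < x - k < 7/8` (pattern: `perProf_local`,
    `contDiff_perProf` in `Vale/Agent/H55/Profile.lean`).  Smoothness follows.
(d) profile equation at `x`, with `u = x - k`: if `u < 3/8` it is `hAeq u` (data `1`-periodic);
    if `1/8 < u` it is `hBeq (u - 1/2)` after `Qform_neg_neg` and `Qform_shiftHalf`
    (`deriv (fun y => -ΘB (y - 1/2)) u = -deriv ΘB (u - 1/2)`).
(e) oddness: `Θ (-x) = -Θ x` reduces by periodicity to `x ∈ Icc 0 (1/2)`... precisely: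
    for `|u| < 3/8`, `FΘ (-u) = -FΘ u` (`ΘA` odd); for `1/8 < u < 7/8`,
    `FΘ (1 - u) = -FΘ u` (`ΘB` odd); same for `FD`.
-/

namespace Vale.Agent.H55.KB

open scoped ContDiff

/-- The cut-off function: `0` for `u ≤ 1/8`, `1` for `u ≥ 3/8`. -/
noncomputable def gl_psi (u : ℝ) : ℝ := Real.smoothTransition (4 * u - 1 / 2)

theorem gl_psi_contDiff : ContDiff ℝ ∞ gl_psi := by
  unfold gl_psi
  exact Real.smoothTransition.contDiff.comp (by fun_prop)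

theorem gl_psi_zero (u : ℝ) (hu : u ≤ 1 / 8) : gl_psi u = 0 := by
  unfold gl_psi
  exact Real.smoothTransition.zero_of_nonpos (by linarith)

theorem gl_psi_one (u : ℝ) (hu : 3 / 8 ≤ u) : gl_psi u = 1 := by
  unfold gl_psi
  exact Real.smoothTransition.one_of_one_le (by linarith)

/-- The glued function on the fundamental window. -/
noncomputable def gl_F (A B : ℝ → ℝ) (u : ℝ) : ℝ :=
  (1 - gl_psi u) * A u - gl_psi u * B (u - 1 / 2)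

theorem gl_F_contDiff (A B : ℝ → ℝ) (hA : ContDiff ℝ ∞ A) (hB : ContDiff ℝ ∞ B) :
    ContDiff ℝ ∞ (gl_F A B) := by
  unfold gl_F
  exact ((contDiff_const.sub gl_psi_contDiff).mul hA).sub
    (gl_psi_contDiff.mul (hB.comp (by fun_prop)))

theorem gl_F_left (A B : ℝ → ℝ) (hAB : ∀ u, 1 / 8 ≤ u → u ≤ 3 / 8 → A u = -B (u - 1 / 2))
    (u : ℝ) (hu : u ≤ 3 / 8) : gl_F A B u = A u := by
  unfold gl_F
  by_cases h : u ≤ 1 / 8
  · rw [gl_psi_zero u h]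
    ring
  · rw [hAB u (not_le.mp h).le hu]
    ring

theorem gl_F_right (A B : ℝ → ℝ) (hAB : ∀ u, 1 / 8 ≤ u → u ≤ 3 / 8 → A u = -B (u - 1 / 2))
    (u : ℝ) (hu : 1 / 8 ≤ u) : gl_F A B u = -B (u - 1 / 2) := by
  unfold gl_F
  by_cases h : 3 / 8 ≤ u
  · rw [gl_psi_one u h]
    ring
  · rw [hAB u hu (not_le.mp h).le]
    ring

theorem gl_F_odd1 (A B : ℝ → ℝ) (hAB : ∀ u, 1 / 8 ≤ u → u ≤ 3 / 8 → A u = -B (u - 1 / 2))
    (oA : ∀ x, A (-x) = -A x) (u : ℝ) (h1 : -3 / 8 ≤ u) (h2 : u ≤ 3 / 8) :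
    gl_F A B (-u) = -gl_F A B u := by
  rw [gl_F_left A B hAB (-u) (by linarith), gl_F_left A B hAB u h2, oA]

theorem gl_F_odd2 (A B : ℝ → ℝ) (hAB : ∀ u, 1 / 8 ≤ u → u ≤ 3 / 8 → A u = -B (u - 1 / 2))
    (oB : ∀ x, B (-x) = -B x) (u : ℝ) (h1 : 1 / 8 ≤ u) (h2 : u ≤ 7 / 8) :
    gl_F A B (1 - u) = -gl_F A B u := by
  rw [gl_F_right A B hAB (1 - u) (by linarith), gl_F_right A B hAB u h1,
    show 1 - u - 1 / 2 = -(u - 1 / 2) by ring, oB]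

/-- Matching of the two local pieces on the plateaus, and the seam identity. -/
theorem gl_glue (A B P Q : ℝ → ℝ) (oA : ∀ x, A (-x) = -A x) (oB : ∀ x, B (-x) = -B x)
    (hA : ∀ x, 1 / 8 ≤ x → A x = P x) (hB : ∀ x, 1 / 8 ≤ x → B x = Q x)
    (hPQ1 : ∀ u, Q (1 / 2 - u) = P u) (hPQ2 : ∀ u, Q (u + 1 / 2) = P (-u)) :
    (∀ u, 1 / 8 ≤ u → u ≤ 3 / 8 → A u = -B (u - 1 / 2)) ∧
      (∀ u, -3 / 8 ≤ u → u ≤ -1 / 8 → gl_F A B (u + 1) = gl_F A B u) := by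
  have hAB : ∀ u, 1 / 8 ≤ u → u ≤ 3 / 8 → A u = -B (u - 1 / 2) := by
    intro u h1 h2
    have e : B (u - 1 / 2) = -B (1 / 2 - u) := by
      rw [← oB]
      congr 1
      ring
    rw [e, hA u h1, hB (1 / 2 - u) (by linarith), hPQ1]
    ring
  refine ⟨hAB, ?_⟩
  intro u h1 h2
  rw [gl_F_right A B hAB (u + 1) (by linarith), gl_F_left A B hAB u (by linarith),
    show u + 1 - 1 / 2 = u + 1 / 2 by ring, hB (u + 1 / 2) (by linarith), hPQ2]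
  have e : A u = -A (-u) := by
    rw [oA]
    ring
  rw [e, hA (-u) (by linarith)]

/-- The `1`-periodic extension from the window `[-1/4, 3/4)`. -/
noncomputable def gl_per (F : ℝ → ℝ) (x : ℝ) : ℝ := F (x - ⌊x + 1 / 4⌋)

theorem gl_per_local (F : ℝ → ℝ) (hseam : ∀ u, -3 / 8 ≤ u → u ≤ -1 / 8 → F (u + 1) = F u)
    (k : ℤ) (y : ℝ) (h1 : -3 / 8 < y - k) (h2 : y - k < 7 / 8) : gl_per F y = F (y - k) := by
  unfold gl_per
  have hm1 := Int.floor_le (y + 1 / 4)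
  have hm2 := Int.lt_floor_add_one (y + 1 / 4)
  obtain ⟨m, hm⟩ : ∃ m : ℤ, m = ⌊y + 1 / 4⌋ := ⟨_, rfl⟩
  rw [← hm] at hm1 hm2 ⊢
  have hlt : (m : ℝ) < ((k + 2 : ℤ) : ℝ) := by
    push_cast
    linarith
  have hgt : ((k - 2 : ℤ) : ℝ) < (m : ℝ) := by
    push_cast
    linarith
  have hlt' : m < k + 2 := by exact_mod_cast hlt
  have hgt' : k - 2 < m := by exact_mod_cast hgt
  have hcases : m = k - 1 ∨ m = k ∨ m = k + 1 := by omega
  rcases hcases with h | h | h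
  · rw [h] at hm1 hm2 ⊢
    push_cast at hm1 hm2 ⊢
    have hs := hseam (y - k) h1.le (by linarith)
    calc F (y - ((k : ℝ) - 1)) = F (y - k + 1) := by
          congr 1
          ring
      _ = F (y - k) := hs
  · rw [h]
  · rw [h] at hm1 hm2 ⊢
    push_cast at hm1 hm2 ⊢
    have hs := hseam (y - k - 1) (by linarith) (by linarith)
    calc F (y - ((k : ℝ) + 1)) = F (y - k - 1) := by
          congr 1
          ring
      _ = F (y - k - 1 + 1) := hs.symm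
      _ = F (y - k) := by
          congr 1
          ring

theorem gl_per_add_one (F : ℝ → ℝ) (x : ℝ) : gl_per F (x + 1) = gl_per F x := by
  unfold gl_per
  rw [show x + 1 + 1 / 4 = x + 1 / 4 + 1 by ring, Int.floor_add_one]
  push_cast
  congr 1
  ring

theorem gl_per_eventuallyEq (F : ℝ → ℝ)
    (hseam : ∀ u, -3 / 8 ≤ u → u ≤ -1 / 8 → F (u + 1) = F u)
    (k : ℤ) (x : ℝ) (h1 : -3 / 8 < x - k) (h2 : x - k < 7 / 8) :
    gl_per F =ᶠ[nhds x] fun y => F (y - k) := by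
  have hmem : Set.Ioo ((k : ℝ) - 3 / 8) (k + 7 / 8) ∈ nhds x :=
    Ioo_mem_nhds (by linarith) (by linarith)
  exact Filter.eventually_of_mem hmem
    (fun y hy => gl_per_local F hseam k y (by linarith [hy.1]) (by linarith [hy.2]))

theorem gl_per_contDiff (F : ℝ → ℝ) (hF : ContDiff ℝ ∞ F)
    (hseam : ∀ u, -3 / 8 ≤ u → u ≤ -1 / 8 → F (u + 1) = F u) : ContDiff ℝ ∞ (gl_per F) := by
  rw [contDiff_iff_contDiffAt]
  intro x
  have hk1 := Int.floor_le (x + 1 / 4)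
  have hk2 := Int.lt_floor_add_one (x + 1 / 4)
  have hc : ContDiff ℝ ∞ (fun y => F (y - (⌊x + 1 / 4⌋ : ℝ))) := hF.comp (by fun_prop)
  exact hc.contDiffAt.congr_of_eventuallyEq
    (gl_per_eventuallyEq F hseam ⌊x + 1 / 4⌋ x (by linarith) (by linarith))

theorem gl_per_deriv (F : ℝ → ℝ) (hseam : ∀ u, -3 / 8 ≤ u → u ≤ -1 / 8 → F (u + 1) = F u)
    (k : ℤ) (x : ℝ) (h1 : -3 / 8 < x - k) (h2 : x - k < 7 / 8) :
    deriv (gl_per F) x = deriv F (x - k) := by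
  rw [(gl_per_eventuallyEq F hseam k x h1 h2).deriv_eq]
  exact deriv_comp_sub_const F (k : ℝ) x

theorem gl_per_odd (F : ℝ → ℝ) (hseam : ∀ u, -3 / 8 ≤ u → u ≤ -1 / 8 → F (u + 1) = F u)
    (o1 : ∀ u, -3 / 8 ≤ u → u ≤ 3 / 8 → F (-u) = -F u)
    (o2 : ∀ u, 1 / 8 ≤ u → u ≤ 7 / 8 → F (1 - u) = -F u) (x : ℝ) :
    gl_per F (-x) = -gl_per F x := by
  have hk1 := Int.floor_le (x + 1 / 4)
  have hk2 := Int.lt_floor_add_one (x + 1 / 4)
  obtain ⟨k, hk⟩ : ∃ k : ℤ, k = ⌊x + 1 / 4⌋ := ⟨_, rfl⟩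
  have hx : gl_per F x = F (x - k) := by
    rw [hk]
    rfl
  rw [← hk] at hk1 hk2
  rw [hx]
  by_cases hu : x - k < 3 / 8
  · have h := gl_per_local F hseam (-k) (-x)
      (by push_cast; linarith) (by push_cast; linarith)
    rw [h]
    have e : -x - ((-k : ℤ) : ℝ) = -(x - k) := by
      push_cast
      ring
    rw [e]
    exact o1 (x - k) (by linarith) (by linarith)
  · have hu' : 3 / 8 ≤ x - k := not_lt.mp hu
    have h := gl_per_local F hseam (-k - 1) (-x)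
      (by push_cast; linarith) (by push_cast; linarith)
    rw [h]
    have e : -x - ((-k - 1 : ℤ) : ℝ) = 1 - (x - k) := by
      push_cast
      ring
    rw [e]
    exact o2 (x - k) (by linarith) (by linarith)

theorem gl_int_periodic (f : ℝ → ℝ) (hp : ∀ x, f (x + 1) = f x) (k : ℤ) (x : ℝ) :
    f (x + k) = f x := by
  have h : Function.Periodic f 1 := hp
  have h2 := (h.int_mul k) x
  simpa using h2

theorem gl_deriv_add_one (g : ℝ → ℝ) (hp : ∀ x, g (x + 1) = g x) (x : ℝ) :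
    deriv g (x + 1) = deriv g x := by
  have h : (fun y => g (y + 1)) = g := funext hp
  calc deriv g (x + 1) = deriv (fun y => g (y + 1)) x := (deriv_comp_add_const g 1 x).symm
    _ = deriv g x := by rw [h]

theorem gl_deriv_neg (g : ℝ → ℝ) (he : ∀ x, g (-x) = g x) (x : ℝ) :
    deriv g (-x) = -deriv g x := by
  have h : (fun y => g (-y)) = g := funext he
  have h2 : deriv (fun y => g (-y)) x = -deriv g (-x) := deriv_comp_neg g x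
  rw [h] at h2
  linarith

theorem gl_Qform_int (g : ℝ → ℝ) (hp : ∀ x, g (x + 1) = g x) (κ1 κ2 x θ p : ℝ) (k : ℤ) :
    Qform g κ1 κ2 (x + k) θ p = Qform g κ1 κ2 x θ p := by
  unfold Qform
  rw [gl_int_periodic g hp k x, gl_int_periodic (deriv g) (gl_deriv_add_one g hp) k x]

theorem gl_Dpl_neg (g W : ℝ → ℝ) (κ1 κ2 : ℝ) (hd : Data g W) (x : ℝ) :
    Dpl g W κ1 κ2 (-x) = Dpl g W κ1 κ2 x := by
  have h : Qform g κ1 κ2 (-x) (Real.pi / 4) 0 = Qform g κ1 κ2 x (Real.pi / 4) 0 := by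
    unfold Qform
    rw [hd.eg, gl_deriv_neg g hd.eg]
    ring
  unfold Dpl
  rw [h, hd.eW, hd.eg]

theorem gl_Dpl_add_one (g W : ℝ → ℝ) (κ1 κ2 : ℝ) (hd : Data g W) (x : ℝ) :
    Dpl g W κ1 κ2 (x + 1) = Dpl g W κ1 κ2 x := by
  have h : Qform g κ1 κ2 (x + 1) (Real.pi / 4) 0 = Qform g κ1 κ2 x (Real.pi / 4) 0 := by
    unfold Qform
    rw [hd.pg, gl_deriv_add_one g hd.pg]
  unfold Dpl
  rw [h, hd.pW, hd.pg]

theorem gl_Dpl_shift (g W : ℝ → ℝ) (κ1 κ2 x : ℝ) :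
    Dpl (shiftHalf g) (shiftHalf W) κ1 κ2 x = Dpl g W κ1 κ2 (x + 1 / 2) := by
  unfold Dpl
  rw [Qform_shiftHalf]
  rfl

theorem exists_profile_of_local (g W : ℝ → ℝ) (κ1 κ2 : ℝ) (hd : Data g W)
    (ΘA DA ΘB DB : ℝ → ℝ)
    (sΘA : ContDiff ℝ ∞ ΘA) (sDA : ContDiff ℝ ∞ DA) (sΘB : ContDiff ℝ ∞ ΘB)
    (sDB : ContDiff ℝ ∞ DB)
    (oΘA : ∀ x, ΘA (-x) = -ΘA x) (oDA : ∀ x, DA (-x) = -DA x)
    (oΘB : ∀ x, ΘB (-x) = -ΘB x) (oDB : ∀ x, DB (-x) = -DB x)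
    (hA1 : ∀ x, 1 / 8 ≤ x → ΘA x = Real.pi / 4)
    (hA2 : ∀ x, 1 / 8 ≤ x → DA x = Dpl g W κ1 κ2 x)
    (hB1 : ∀ x, 1 / 8 ≤ x → ΘB x = Real.pi / 4)
    (hB2 : ∀ x, 1 / 8 ≤ x → DB x = Dpl (shiftHalf g) (shiftHalf W) κ1 κ2 x)
    (hAeq : ProfEq g W κ1 κ2 ΘA DA)
    (hBeq : ProfEq (shiftHalf g) (shiftHalf W) κ1 κ2 ΘB DB) :
    ∃ Θ D : ℝ → ℝ, ContDiff ℝ ∞ Θ ∧ ContDiff ℝ ∞ D ∧
      (∀ x, Θ (-x) = -Θ x) ∧ (∀ x, D (-x) = -D x) ∧
      (∀ x, Θ (x + 1) = Θ x) ∧ (∀ x, D (x + 1) = D x) ∧ ProfEq g W κ1 κ2 Θ D := by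
  obtain ⟨hABΘ, hseamΘ⟩ := gl_glue ΘA ΘB (fun _ => Real.pi / 4) (fun _ => Real.pi / 4)
    oΘA oΘB hA1 hB1 (fun _ => rfl) (fun _ => rfl)
  have hPQ1 : ∀ u, Dpl (shiftHalf g) (shiftHalf W) κ1 κ2 (1 / 2 - u) = Dpl g W κ1 κ2 u := by
    intro u
    rw [gl_Dpl_shift, show (1 : ℝ) / 2 - u + 1 / 2 = -u + 1 by ring, gl_Dpl_add_one g W κ1 κ2 hd,
      gl_Dpl_neg g W κ1 κ2 hd]
  have hPQ2 : ∀ u, Dpl (shiftHalf g) (shiftHalf W) κ1 κ2 (u + 1 / 2) = Dpl g W κ1 κ2 (-u) := by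
    intro u
    rw [gl_Dpl_shift, show u + 1 / 2 + 1 / 2 = u + 1 by ring, gl_Dpl_add_one g W κ1 κ2 hd,
      gl_Dpl_neg g W κ1 κ2 hd]
  obtain ⟨hABD, hseamD⟩ := gl_glue DA DB (Dpl g W κ1 κ2)
    (Dpl (shiftHalf g) (shiftHalf W) κ1 κ2) oDA oDB hA2 hB2 hPQ1 hPQ2
  refine ⟨gl_per (gl_F ΘA ΘB), gl_per (gl_F DA DB),
    gl_per_contDiff _ (gl_F_contDiff ΘA ΘB sΘA sΘB) hseamΘ,
    gl_per_contDiff _ (gl_F_contDiff DA DB sDA sDB) hseamD,
    gl_per_odd _ hseamΘ (gl_F_odd1 ΘA ΘB hABΘ oΘA) (gl_F_odd2 ΘA ΘB hABΘ oΘB),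
    gl_per_odd _ hseamD (gl_F_odd1 DA DB hABD oDA) (gl_F_odd2 DA DB hABD oDB),
    gl_per_add_one _, gl_per_add_one _, ?_⟩
  intro x
  have hk1 := Int.floor_le (x + 1 / 4)
  have hk2 := Int.lt_floor_add_one (x + 1 / 4)
  obtain ⟨k, hk⟩ : ∃ k : ℤ, k = ⌊x + 1 / 4⌋ := ⟨_, rfl⟩
  rw [← hk] at hk1 hk2
  obtain ⟨u, hu⟩ : ∃ u : ℝ, u = x - k := ⟨_, rfl⟩
  have hxu : x = u + k := by
    rw [hu]
    ring
  have hw1 : -3 / 8 < x - k := by linarith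
  have hw2 : x - k < 7 / 8 := by linarith
  have hΘx : gl_per (gl_F ΘA ΘB) x = gl_F ΘA ΘB u := by
    rw [gl_per_local _ hseamΘ k x hw1 hw2, hu]
  have hDx : gl_per (gl_F DA DB) x = gl_F DA DB u := by
    rw [gl_per_local _ hseamD k x hw1 hw2, hu]
  have hdΘx : deriv (gl_per (gl_F ΘA ΘB)) x = deriv (gl_F ΘA ΘB) u := by
    rw [gl_per_deriv _ hseamΘ k x hw1 hw2, hu]
  rw [hΘx, hDx, hdΘx, hxu, gl_Qform_int g hd.pg, gl_int_periodic g hd.pg,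
    gl_int_periodic W hd.pW]
  by_cases h : u < 3 / 8
  · have hev : gl_F ΘA ΘB =ᶠ[nhds u] ΘA :=
      Filter.eventually_of_mem (Iio_mem_nhds h)
        (fun v hv => gl_F_left ΘA ΘB hABΘ v (le_of_lt hv))
    rw [hev.deriv_eq, gl_F_left ΘA ΘB hABΘ u h.le, gl_F_left DA DB hABD u h.le]
    exact hAeq u
  · have h' : 1 / 8 < u := by linarith [not_lt.mp h]
    have hev : gl_F ΘA ΘB =ᶠ[nhds u] fun v => -ΘB (v - 1 / 2) :=
      Filter.eventually_of_mem (Ioi_mem_nhds h')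
        (fun v hv => gl_F_right ΘA ΘB hABΘ v (le_of_lt hv))
    have hder : deriv (fun v => -ΘB (v - 1 / 2)) u = -deriv ΘB (u - 1 / 2) := by
      have hdiff : HasDerivAt ΘB (deriv ΘB (u - 1 / 2)) (u - 1 / 2) :=
        ((sΘB.differentiable (by simp)) (u - 1 / 2)).hasDerivAt
      exact ((hdiff.comp_sub_const u (1 / 2)).neg).deriv
    rw [hev.deriv_eq, hder, gl_F_right ΘA ΘB hABΘ u h'.le, gl_F_right DA DB hABD u h'.le,
      Qform_neg_neg, Real.sin_neg, Real.cos_neg]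
    have hB := hBeq (u - 1 / 2)
    rw [Qform_shiftHalf] at hB
    simp only [shiftHalf] at hB
    rw [show u - 1 / 2 + 1 / 2 = u by ring] at hB
    linear_combination hB

end Vale.Agent.H55.KB
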