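import Vale.Agent.H55.KB.Defs

/-!
Properties of the positive root `Hzero` of the quadratic `Qform = W`.

Write `A, B, C` for `Acoef, Bcoef, Ccoef` at `(x, θ)`, `H = Hzero = (-B + √Δ) / A`,
`Δ = B² - A (C - W x) = B² + A (W x - C)`.  Facts: `A > 0` (`g x > 0`, `κ1, κ2 > 0`,
`cos² + sin² = 1`), `W x - C > 0` (hypothesis `hC`), hence `Δ > B² ≥ 0` and `√Δ > |B|`.
* smoothness: `deriv g` is smooth (`contDiff_infty_iff_deriv` applied to `hd.sg`), so `A, B, C`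
  are smooth functions of `q = (x, θ)`; `√` of a smooth positive function is smooth
  (`ContDiff.sqrt`), division by the smooth positive `A` (`ContDiff.div`).
* positivity: `-B + √Δ > 0`.
* root identity: `A H² + 2 B H + C = W x` (use `Qform_eq`; `(√Δ)² = Δ`).
* symmetry `(x, θ) ↦ (-x, -θ)`: `g, W` even, `deriv g` odd (`deriv_comp_neg`), so `A, B, C` are
  unchanged.  Periodicity in `x`: `g, W, deriv g` are `1`-periodic.  Periodicity `θ ↦ θ + π`: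
  `sin, cos` both change sign (`Real.sin_add_pi`, `Real.cos_add_pi`).
* damping identity: with `A H² + 2 B H + C = W x`,
  `W x - Qform … ((1 - μ) H) = μ H (A H (2 - μ) + 2 B)` (pure algebra), and for `μ ≤ 1`
  `A H (2 - μ) + 2 B ≥ A H + 2 B = B + √Δ > 0` (as `A H = -B + √Δ > 0`).
-/

namespace Vale.Agent.H55.KB

open scoped ContDiff

theorem hz_A_pos (g : ℝ → ℝ) (κ1 κ2 x θ : ℝ) (hg : 0 < g x) (h1 : 0 < κ1) (h2 : 0 < κ2) :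
    0 < Acoef g κ1 κ2 x θ := by
  unfold Acoef
  have hsc := Real.sin_sq_add_cos_sq θ
  have hpos : 0 < Real.cos θ ^ 2 / κ1 ^ 2 + Real.sin θ ^ 2 / κ2 ^ 2 := by
    rcases lt_or_eq_of_le (sq_nonneg (Real.cos θ)) with h | h
    · have ha : 0 < Real.cos θ ^ 2 / κ1 ^ 2 := by positivity
      have hb : 0 ≤ Real.sin θ ^ 2 / κ2 ^ 2 := by positivity
      linarith
    · have hs : 0 < Real.sin θ ^ 2 := by nlinarith
      have ha : 0 < Real.sin θ ^ 2 / κ2 ^ 2 := by positivity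
      have hb : 0 ≤ Real.cos θ ^ 2 / κ1 ^ 2 := by positivity
      linarith
  positivity

theorem hz_deriv_neg (g : ℝ → ℝ) (he : ∀ x, g (-x) = g x) (x : ℝ) :
    deriv g (-x) = -deriv g x := by
  have h : (fun y => g (-y)) = g := funext he
  have h2 := deriv_comp_neg g x
  rw [h] at h2
  linarith

theorem hz_deriv_add_one (g : ℝ → ℝ) (hp : ∀ x, g (x + 1) = g x) (x : ℝ) :
    deriv g (x + 1) = deriv g x := by
  have h : (fun y => g (y + 1)) = g := funext hp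
  have h2 := deriv_comp_add_const g 1 x
  rw [h] at h2
  exact h2.symm

theorem hz_disc_gt (g W : ℝ → ℝ) (κ1 κ2 x θ : ℝ) (hg : 0 < g x) (h1 : 0 < κ1) (h2 : 0 < κ2)
    (hC : Ccoef g κ1 κ2 x θ < W x) :
    Bcoef g κ1 κ2 x θ ^ 2
      < Bcoef g κ1 κ2 x θ ^ 2 - Acoef g κ1 κ2 x θ * (Ccoef g κ1 κ2 x θ - W x) := by
  have hA := hz_A_pos g κ1 κ2 x θ hg h1 h2
  nlinarith

theorem hz_sqrt_gt (g W : ℝ → ℝ) (κ1 κ2 x θ : ℝ) (hg : 0 < g x) (h1 : 0 < κ1) (h2 : 0 < κ2)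
    (hC : Ccoef g κ1 κ2 x θ < W x) :
    |Bcoef g κ1 κ2 x θ|
      < Real.sqrt (Bcoef g κ1 κ2 x θ ^ 2
          - Acoef g κ1 κ2 x θ * (Ccoef g κ1 κ2 x θ - W x)) := by
  have h := hz_disc_gt g W κ1 κ2 x θ hg h1 h2 hC
  rw [← Real.sqrt_sq_eq_abs]
  exact Real.sqrt_lt_sqrt (sq_nonneg _) h

theorem hz_smooth_A (g : ℝ → ℝ) (κ1 κ2 : ℝ) (hg : ContDiff ℝ ∞ g) :
    ContDiff ℝ ∞ (fun q : ℝ × ℝ => Acoef g κ1 κ2 q.1 q.2) := by
  unfold Acoef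
  have hg1 : ContDiff ℝ ∞ (fun q : ℝ × ℝ => g q.1) := hg.comp contDiff_fst
  have hc : ContDiff ℝ ∞ (fun q : ℝ × ℝ => Real.cos q.2) := Real.contDiff_cos.comp contDiff_snd
  have hs : ContDiff ℝ ∞ (fun q : ℝ × ℝ => Real.sin q.2) := Real.contDiff_sin.comp contDiff_snd
  exact (hg1.pow 2).mul (((hc.pow 2).div_const _).add ((hs.pow 2).div_const _))

theorem hz_smooth_B (g : ℝ → ℝ) (κ1 κ2 : ℝ) (hg : ContDiff ℝ ∞ g) :
    ContDiff ℝ ∞ (fun q : ℝ × ℝ => Bcoef g κ1 κ2 q.1 q.2) := by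
  unfold Bcoef
  have hdg : ContDiff ℝ ∞ (deriv g) := (contDiff_infty_iff_deriv.mp hg).2
  have hg1 : ContDiff ℝ ∞ (fun q : ℝ × ℝ => g q.1) := hg.comp contDiff_fst
  have hd1 : ContDiff ℝ ∞ (fun q : ℝ × ℝ => deriv g q.1) := hdg.comp contDiff_fst
  have hc : ContDiff ℝ ∞ (fun q : ℝ × ℝ => Real.cos q.2) := Real.contDiff_cos.comp contDiff_snd
  have hs : ContDiff ℝ ∞ (fun q : ℝ × ℝ => Real.sin q.2) := Real.contDiff_sin.comp contDiff_snd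
  exact (((hg1.mul hd1).mul hs).mul hc).mul contDiff_const

theorem hz_smooth_C (g : ℝ → ℝ) (κ1 κ2 : ℝ) (hg : ContDiff ℝ ∞ g) :
    ContDiff ℝ ∞ (fun q : ℝ × ℝ => Ccoef g κ1 κ2 q.1 q.2) := by
  unfold Ccoef
  have hdg : ContDiff ℝ ∞ (deriv g) := (contDiff_infty_iff_deriv.mp hg).2
  have hd1 : ContDiff ℝ ∞ (fun q : ℝ × ℝ => deriv g q.1) := hdg.comp contDiff_fst
  have hc : ContDiff ℝ ∞ (fun q : ℝ × ℝ => Real.cos q.2) := Real.contDiff_cos.comp contDiff_snd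
  have hs : ContDiff ℝ ∞ (fun q : ℝ × ℝ => Real.sin q.2) := Real.contDiff_sin.comp contDiff_snd
  exact (hd1.pow 2).mul (((hs.pow 2).div_const _).add ((hc.pow 2).div_const _))

theorem hz_pos (g W : ℝ → ℝ) (κ1 κ2 x θ : ℝ) (hg : 0 < g x) (h1 : 0 < κ1) (h2 : 0 < κ2)
    (hC : Ccoef g κ1 κ2 x θ < W x) : 0 < Hzero g W κ1 κ2 x θ := by
  have hA := hz_A_pos g κ1 κ2 x θ hg h1 h2
  have hs := hz_sqrt_gt g W κ1 κ2 x θ hg h1 h2 hC
  unfold Hzero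
  apply div_pos _ hA
  have := le_abs_self (Bcoef g κ1 κ2 x θ)
  linarith

theorem hz_root (g W : ℝ → ℝ) (κ1 κ2 x θ : ℝ) (hg : 0 < g x) (h1 : 0 < κ1) (h2 : 0 < κ2)
    (hC : Ccoef g κ1 κ2 x θ < W x) :
    Acoef g κ1 κ2 x θ * Hzero g W κ1 κ2 x θ ^ 2 + 2 * Bcoef g κ1 κ2 x θ * Hzero g W κ1 κ2 x θ
      + Ccoef g κ1 κ2 x θ = W x := by
  have hA := hz_A_pos g κ1 κ2 x θ hg h1 h2
  have hd := hz_disc_gt g W κ1 κ2 x θ hg h1 h2 hC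
  have hnn : 0 ≤ Bcoef g κ1 κ2 x θ ^ 2
      - Acoef g κ1 κ2 x θ * (Ccoef g κ1 κ2 x θ - W x) := by
    have := sq_nonneg (Bcoef g κ1 κ2 x θ)
    linarith
  have hsq := Real.sq_sqrt hnn
  unfold Hzero
  generalize Real.sqrt (Bcoef g κ1 κ2 x θ ^ 2
      - Acoef g κ1 κ2 x θ * (Ccoef g κ1 κ2 x θ - W x)) = s at hsq
  have hA0 : Acoef g κ1 κ2 x θ ≠ 0 := ne_of_gt hA
  field_simp
  linear_combination hsq

theorem hz_AH (g W : ℝ → ℝ) (κ1 κ2 x θ : ℝ) (hg : 0 < g x) (h1 : 0 < κ1) (h2 : 0 < κ2) :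
    Acoef g κ1 κ2 x θ * Hzero g W κ1 κ2 x θ
      = -Bcoef g κ1 κ2 x θ + Real.sqrt (Bcoef g κ1 κ2 x θ ^ 2
          - Acoef g κ1 κ2 x θ * (Ccoef g κ1 κ2 x θ - W x)) := by
  have hA := hz_A_pos g κ1 κ2 x θ hg h1 h2
  unfold Hzero
  field_simp

theorem hzero_props (g W : ℝ → ℝ) (κ1 κ2 : ℝ) (hd : Data g W) (h1 : 0 < κ1) (h2 : 0 < κ2)
    (hC : ∀ x θ, Ccoef g κ1 κ2 x θ < W x) :
    ContDiff ℝ ∞ (fun q : ℝ × ℝ => Hzero g W κ1 κ2 q.1 q.2) ∧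
    (∀ x θ, 0 < Hzero g W κ1 κ2 x θ) ∧
    (∀ x θ, Qform g κ1 κ2 x θ (Hzero g W κ1 κ2 x θ) = W x) ∧
    (∀ x θ, Hzero g W κ1 κ2 (-x) (-θ) = Hzero g W κ1 κ2 x θ) ∧
    (∀ x θ, Hzero g W κ1 κ2 (x + 1) θ = Hzero g W κ1 κ2 x θ) ∧
    (∀ x θ, Hzero g W κ1 κ2 x (θ + Real.pi) = Hzero g W κ1 κ2 x θ) ∧
    (∀ x θ μ, μ ≤ 1 →
      W x - Qform g κ1 κ2 x θ ((1 - μ) * Hzero g W κ1 κ2 x θ)
        = μ * (Hzero g W κ1 κ2 x θ * (Acoef g κ1 κ2 x θ * Hzero g W κ1 κ2 x θ * (2 - μ)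
            + 2 * Bcoef g κ1 κ2 x θ)) ∧
      0 < Hzero g W κ1 κ2 x θ * (Acoef g κ1 κ2 x θ * Hzero g W κ1 κ2 x θ * (2 - μ)
            + 2 * Bcoef g κ1 κ2 x θ)) := by
  refine ⟨?_, ?_, ?_, ?_, ?_, ?_, ?_⟩
  · -- smoothness
    have hA := hz_smooth_A g κ1 κ2 hd.sg
    have hB := hz_smooth_B g κ1 κ2 hd.sg
    have hCs := hz_smooth_C g κ1 κ2 hd.sg
    have hW1 : ContDiff ℝ ∞ (fun q : ℝ × ℝ => W q.1) := hd.sW.comp contDiff_fst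
    have hdisc : ContDiff ℝ ∞ (fun q : ℝ × ℝ => Bcoef g κ1 κ2 q.1 q.2 ^ 2
        - Acoef g κ1 κ2 q.1 q.2 * (Ccoef g κ1 κ2 q.1 q.2 - W q.1)) :=
      (hB.pow 2).sub (hA.mul (hCs.sub hW1))
    have hsq : ContDiff ℝ ∞ (fun q : ℝ × ℝ => Real.sqrt (Bcoef g κ1 κ2 q.1 q.2 ^ 2
        - Acoef g κ1 κ2 q.1 q.2 * (Ccoef g κ1 κ2 q.1 q.2 - W q.1))) := by
      apply hdisc.sqrt
      intro q
      have h := hz_disc_gt g W κ1 κ2 q.1 q.2 (hd.gpos _) h1 h2 (hC _ _)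
      have h0 := sq_nonneg (Bcoef g κ1 κ2 q.1 q.2)
      exact ne_of_gt (lt_of_le_of_lt h0 h)
    unfold Hzero
    apply (hB.neg.add hsq).div hA
    intro q
    exact ne_of_gt (hz_A_pos g κ1 κ2 q.1 q.2 (hd.gpos _) h1 h2)
  · intro x θ
    exact hz_pos g W κ1 κ2 x θ (hd.gpos x) h1 h2 (hC x θ)
  · intro x θ
    rw [Qform_eq]
    exact hz_root g W κ1 κ2 x θ (hd.gpos x) h1 h2 (hC x θ)
  · intro x θ
    have hA : Acoef g κ1 κ2 (-x) (-θ) = Acoef g κ1 κ2 x θ := by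
      unfold Acoef
      rw [hd.eg, Real.sin_neg, Real.cos_neg]
      ring
    have hB : Bcoef g κ1 κ2 (-x) (-θ) = Bcoef g κ1 κ2 x θ := by
      unfold Bcoef
      rw [hd.eg, hz_deriv_neg g hd.eg, Real.sin_neg, Real.cos_neg]
      ring
    have hCc : Ccoef g κ1 κ2 (-x) (-θ) = Ccoef g κ1 κ2 x θ := by
      unfold Ccoef
      rw [hz_deriv_neg g hd.eg, Real.sin_neg, Real.cos_neg]
      ring
    unfold Hzero
    rw [hA, hB, hCc, hd.eW]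
  · intro x θ
    have hA : Acoef g κ1 κ2 (x + 1) θ = Acoef g κ1 κ2 x θ := by
      unfold Acoef
      rw [hd.pg]
    have hB : Bcoef g κ1 κ2 (x + 1) θ = Bcoef g κ1 κ2 x θ := by
      unfold Bcoef
      rw [hd.pg, hz_deriv_add_one g hd.pg]
    have hCc : Ccoef g κ1 κ2 (x + 1) θ = Ccoef g κ1 κ2 x θ := by
      unfold Ccoef
      rw [hz_deriv_add_one g hd.pg]
    unfold Hzero
    rw [hA, hB, hCc, hd.pW]
  · intro x θ
    have hA : Acoef g κ1 κ2 x (θ + Real.pi) = Acoef g κ1 κ2 x θ := by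
      unfold Acoef
      rw [Real.sin_add_pi, Real.cos_add_pi]
      ring
    have hB : Bcoef g κ1 κ2 x (θ + Real.pi) = Bcoef g κ1 κ2 x θ := by
      unfold Bcoef
      rw [Real.sin_add_pi, Real.cos_add_pi]
      ring
    have hCc : Ccoef g κ1 κ2 x (θ + Real.pi) = Ccoef g κ1 κ2 x θ := by
      unfold Ccoef
      rw [Real.sin_add_pi, Real.cos_add_pi]
      ring
    unfold Hzero
    rw [hA, hB, hCc]
  · intro x θ μ hμ
    have hroot := hz_root g W κ1 κ2 x θ (hd.gpos x) h1 h2 (hC x θ)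
    have hpos := hz_pos g W κ1 κ2 x θ (hd.gpos x) h1 h2 (hC x θ)
    have hA := hz_A_pos g κ1 κ2 x θ (hd.gpos x) h1 h2
    have hAH := hz_AH g W κ1 κ2 x θ (hd.gpos x) h1 h2
    have hs := hz_sqrt_gt g W κ1 κ2 x θ (hd.gpos x) h1 h2 (hC x θ)
    refine ⟨?_, ?_⟩
    · rw [Qform_eq]
      linear_combination (-1 : ℝ) * hroot
    · apply mul_pos hpos
      have hAHpos : 0 < Acoef g κ1 κ2 x θ * Hzero g W κ1 κ2 x θ := mul_pos hA hpos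
      have hnabs := neg_abs_le (Bcoef g κ1 κ2 x θ)
      have h1μ : 0 ≤ 1 - μ := by linarith
      have hprod : 0 ≤ Acoef g κ1 κ2 x θ * Hzero g W κ1 κ2 x θ * (1 - μ) :=
        mul_nonneg hAHpos.le h1μ
      nlinarith
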