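import Vale.Agent.H55.KB.LocTheta0

/-!
The angle profile `Θ` of the local solution near a crossing, together with a positive smooth
function `Nt` such that the defect `W - Qform` equals `ν² Nt`.

TASK KB-THETA (replace the `sorry`, keep the statement exactly; the imported lemmas
`exists_ode_zone`, `exists_chi`, `hzero_props` may be used as they are stated, whether or not
their proofs have landed).
Take `χ, C` from `exists_chi` and `P₀ = C * (π / 4)`.  Given the data, `Small` with `p = 0`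
gives `hC : Ccoef < W` (`Qform_zero`).  Take `x₂, Θp, ν, Θo` from `exists_ode_zone`
(`0 < Θp ≤ π/4` as `Θp = Θo x₂`), `H = Hzero g W κ1 κ2`, and put
  `Θ x  = Θo x + χ x * (π/4 - Θp)`,
  `N x  = W x - Qform g κ1 κ2 x (Θ x) (deriv Θ x)`,
  `Pp x = H x (Θo x) * (Acoef g κ1 κ2 x (Θo x) * H x (Θo x) * (2 - ν x ^ 2)
            + 2 * Bcoef g κ1 κ2 x (Θo x))`   (positive, by the last part of `hzero_props`),
  `Nt x = N x + (1 - ν x ^ 2) * Pp x`,   `a = x₂ / 2`.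
At every `x`: `deriv Θ x = (1 - ν x ^ 2) * H x (Θo x) + deriv χ x * (π/4 - Θp)`.
* zone 1, `|x| < 1/16`: `χ = 0` near `x`, so `χ x = 0`, `deriv χ x = 0`, `Θ x = Θo x`, and the
  damping identity of `hzero_props` with `μ = ν x ^ 2 ≤ 1` gives `N x = ν x ^ 2 * Pp x`; hence
  `Nt x = Pp x > 0` and `N x = ν x ^ 2 * Nt x`.
* zone 2, `x₂ ≤ |x|`: `ν x = 1`, so `deriv Θ x = deriv χ x * (π/4 - Θp)`, `|deriv Θ x| ≤ P₀`,
  and `Small` gives `N x > 0`; `Nt x = N x` and `N x = ν x ^ 2 * Nt x`.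
  The two zones cover the line since `x₂ ≤ 1/32`.
* smoothness of `Nt`: `deriv Θ`, `deriv g` are smooth (`contDiff_infty_iff_deriv`), `H` is
  smooth in `(x, θ)` and is composed with `x ↦ (x, Θo x)`.
* evenness of `Nt`: `Θ` odd, so `deriv Θ` even (`deriv_comp_neg`); `g` even, `deriv g` odd;
  `Qform g κ1 κ2 (-x) (-θ) p = Qform g κ1 κ2 x θ p`; `H`, `Acoef`, `Bcoef` are invariant under
  `(x, θ) ↦ (-x, -θ)`; `ν` even.
* `0 < Θ x ≤ π/4` for `0 < x`: if `x < x₂` then `χ x = 0` and `Θ x = Θo x`; if `x₂ ≤ x` then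
  `Θ x = Θp + χ x * (π/4 - Θp)` with `0 ≤ χ x ≤ 1`.  For `3/32 ≤ x`: `χ x = 1`, `Θ x = π/4`,
  `ν x = 1`.  For `|x| < a`: `ν x = 0`.
-/

namespace Vale.Agent.H55.KB

open scoped ContDiff

/-- The derivative of an even function is odd. -/
theorem lt_deriv_of_even {f : ℝ → ℝ} (hf : ∀ x, f (-x) = f x) (x : ℝ) :
    deriv f (-x) = -deriv f x := by
  have h1 : (fun y => f (-y)) = f := funext hf
  have h2 : deriv (fun y => f (-y)) x = -deriv f (-x) := deriv_comp_neg f x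
  rw [h1] at h2
  linarith

/-- The derivative of an odd function is even. -/
theorem lt_deriv_of_odd {f : ℝ → ℝ} (hf : ∀ x, f (-x) = -f x) (x : ℝ) :
    deriv f (-x) = deriv f x := by
  have h1 : (fun y => f (-y)) = fun y => -f y := funext hf
  have h2 : deriv (fun y => f (-y)) x = -deriv f (-x) := deriv_comp_neg f x
  have h3 : deriv (fun y => -f y) x = -deriv f x := deriv.fun_neg
  rw [h1, h3] at h2
  linarith

theorem lt_Qform_symm {g : ℝ → ℝ} (hg : ∀ x, g (-x) = g x) (κ1 κ2 x θ p : ℝ) :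
    Qform g κ1 κ2 (-x) (-θ) p = Qform g κ1 κ2 x θ p := by
  unfold Qform
  rw [lt_deriv_of_even hg x, hg x, Real.sin_neg, Real.cos_neg]
  ring

theorem lt_Acoef_symm {g : ℝ → ℝ} (hg : ∀ x, g (-x) = g x) (κ1 κ2 x θ : ℝ) :
    Acoef g κ1 κ2 (-x) (-θ) = Acoef g κ1 κ2 x θ := by
  unfold Acoef
  rw [hg x, Real.sin_neg, Real.cos_neg]
  ring

theorem lt_Bcoef_symm {g : ℝ → ℝ} (hg : ∀ x, g (-x) = g x) (κ1 κ2 x θ : ℝ) :
    Bcoef g κ1 κ2 (-x) (-θ) = Bcoef g κ1 κ2 x θ := by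
  unfold Bcoef
  rw [lt_deriv_of_even hg x, hg x, Real.sin_neg, Real.cos_neg]
  ring

theorem lt_contDiff_Qform {g Θ : ℝ → ℝ} (hg : ContDiff ℝ ∞ g) (hΘ : ContDiff ℝ ∞ Θ)
    (κ1 κ2 : ℝ) : ContDiff ℝ ∞ (fun x => Qform g κ1 κ2 x (Θ x) (deriv Θ x)) := by
  have hdg : ContDiff ℝ ∞ (deriv g) := (contDiff_infty_iff_deriv.1 hg).2
  have hdΘ : ContDiff ℝ ∞ (deriv Θ) := (contDiff_infty_iff_deriv.1 hΘ).2
  unfold Qform
  generalize deriv g = dg at hdg ⊢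
  generalize deriv Θ = dΘ at hdΘ ⊢
  fun_prop

theorem lt_contDiff_Acoef {g Θo : ℝ → ℝ} (hg : ContDiff ℝ ∞ g) (hΘo : ContDiff ℝ ∞ Θo)
    (κ1 κ2 : ℝ) : ContDiff ℝ ∞ (fun x => Acoef g κ1 κ2 x (Θo x)) := by
  unfold Acoef
  fun_prop

theorem lt_contDiff_Bcoef {g Θo : ℝ → ℝ} (hg : ContDiff ℝ ∞ g) (hΘo : ContDiff ℝ ∞ Θo)
    (κ1 κ2 : ℝ) : ContDiff ℝ ∞ (fun x => Bcoef g κ1 κ2 x (Θo x)) := by
  have hdg : ContDiff ℝ ∞ (deriv g) := (contDiff_infty_iff_deriv.1 hg).2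
  unfold Bcoef
  generalize deriv g = dg at hdg ⊢
  fun_prop

/-- The construction for a given cut-off `χ` with derivative bounded by `C`. -/
theorem lt_core (g W : ℝ → ℝ) (κ1 κ2 : ℝ) (hd : Data g W) (h1 : 0 < κ1) (h2 : 0 < κ2)
    (χ : ℝ → ℝ) (C : ℝ) (hC0 : 0 < C) (hχs : ContDiff ℝ ∞ χ) (hχo : ∀ x, χ (-x) = -χ x)
    (hχ0 : ∀ x, |x| ≤ 1 / 16 → χ x = 0) (hχ1 : ∀ x, 3 / 32 ≤ x → χ x = 1)
    (hχ01 : ∀ x, 0 ≤ x → 0 ≤ χ x ∧ χ x ≤ 1) (hχd : ∀ x, |deriv χ x| ≤ C)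
    (hS : Small g W κ1 κ2 (C * (Real.pi / 4))) :
    ∃ (a : ℝ) (ν Θ Nt : ℝ → ℝ), 0 < a ∧ ContDiff ℝ ∞ ν ∧ ContDiff ℝ ∞ Θ ∧ ContDiff ℝ ∞ Nt ∧
      (∀ x, ν (-x) = ν x) ∧ (∀ x, Θ (-x) = -Θ x) ∧ (∀ x, Nt (-x) = Nt x) ∧ (∀ x, 0 < Nt x) ∧
      (∀ x, |x| < a → ν x = 0) ∧ (∀ x, 3 / 32 ≤ x → ν x = 1) ∧
      (∀ x, 0 < x → 0 < Θ x ∧ Θ x ≤ Real.pi / 4) ∧ (∀ x, 3 / 32 ≤ x → Θ x = Real.pi / 4) ∧
      ∀ x, W x - Qform g κ1 κ2 x (Θ x) (deriv Θ x) = ν x ^ 2 * Nt x := by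
  have hpi : 0 < Real.pi / 4 := by positivity
  have hP0 : 0 < C * (Real.pi / 4) := mul_pos hC0 hpi
  have hC : ∀ x θ, Ccoef g κ1 κ2 x θ < W x := by
    intro x θ
    have := hS x θ 0 (by rw [abs_zero]; exact hP0.le)
    rwa [Qform_zero] at this
  obtain ⟨x₂, Θp, ν, Θo, hx2, hx2le, hνs, hΘos, hνe, hν0, hν1, hνz, hνo, hΘoo, hΘod, hΘopos,
    hΘoc⟩ := exists_ode_zone g W κ1 κ2 hd h1 h2 hC
  obtain ⟨hHs, -, -, hHsym, -, -, hHdamp⟩ := hzero_props g W κ1 κ2 hd h1 h2 hC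
  have hΘp : 0 < Θp ∧ Θp ≤ Real.pi / 4 := by
    have := hΘopos x₂ hx2
    rwa [hΘoc x₂ le_rfl] at this
  obtain ⟨Θ, hΘdef⟩ : ∃ Θ : ℝ → ℝ, Θ = fun x => Θo x + χ x * (Real.pi / 4 - Θp) := ⟨_, rfl⟩
  have hΘx : ∀ x, Θ x = Θo x + χ x * (Real.pi / 4 - Θp) := fun x => by rw [hΘdef]
  have hΘs : ContDiff ℝ ∞ Θ := by
    rw [hΘdef]
    exact hΘos.add (hχs.mul contDiff_const)
  have hΘd : ∀ x, deriv Θ x
      = (1 - ν x ^ 2) * Hzero g W κ1 κ2 x (Θo x) + deriv χ x * (Real.pi / 4 - Θp) := by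
    intro x
    have hχx : HasDerivAt χ (deriv χ x) x := ((hχs.differentiable (by simp)) x).hasDerivAt
    have h3 : HasDerivAt (fun y => Θo y + χ y * (Real.pi / 4 - Θp))
        ((1 - ν x ^ 2) * Hzero g W κ1 κ2 x (Θo x) + deriv χ x * (Real.pi / 4 - Θp)) x :=
      (hΘod x).add (hχx.mul_const _)
    rw [hΘdef]
    exact h3.deriv
  have hΘodd : ∀ x, Θ (-x) = -Θ x := by
    intro x
    rw [hΘx, hΘx, hΘoo, hχo]
    ring
  obtain ⟨Pp, hPpdef⟩ : ∃ Pp : ℝ → ℝ, Pp = fun x => Hzero g W κ1 κ2 x (Θo x) *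
      (Acoef g κ1 κ2 x (Θo x) * Hzero g W κ1 κ2 x (Θo x) * (2 - ν x ^ 2)
        + 2 * Bcoef g κ1 κ2 x (Θo x)) := ⟨_, rfl⟩
  have hPpx : ∀ x, Pp x = Hzero g W κ1 κ2 x (Θo x) *
      (Acoef g κ1 κ2 x (Θo x) * Hzero g W κ1 κ2 x (Θo x) * (2 - ν x ^ 2)
        + 2 * Bcoef g κ1 κ2 x (Θo x)) := fun x => by rw [hPpdef]
  obtain ⟨Nt, hNtdef⟩ : ∃ Nt : ℝ → ℝ, Nt = fun x =>
      (W x - Qform g κ1 κ2 x (Θ x) (deriv Θ x)) + (1 - ν x ^ 2) * Pp x := ⟨_, rfl⟩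
  have hNtx : ∀ x, Nt x
      = (W x - Qform g κ1 κ2 x (Θ x) (deriv Θ x)) + (1 - ν x ^ 2) * Pp x :=
    fun x => by rw [hNtdef]
  have hνsq : ∀ x, ν x ^ 2 ≤ 1 := fun x => by
    nlinarith [mul_nonneg (hν0 x) (sub_nonneg.2 (hν1 x)), hν0 x, hν1 x]
  have hzone : ∀ x, W x - Qform g κ1 κ2 x (Θ x) (deriv Θ x) = ν x ^ 2 * Nt x ∧ 0 < Nt x := by
    intro x
    rcases lt_or_ge |x| (1 / 16) with hx | hx
    · have hχx0 : χ x = 0 := hχ0 x hx.le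
      have hχdx0 : deriv χ x = 0 := by
        have hmem : {y : ℝ | |y| < 1 / 16} ∈ nhds x :=
          (isOpen_lt continuous_abs continuous_const).mem_nhds hx
        have hev : χ =ᶠ[nhds x] fun _ => (0 : ℝ) :=
          Filter.eventually_of_mem hmem (fun y hy => hχ0 y (le_of_lt hy))
        rw [hev.deriv_eq, deriv_const]
      have e1 : Θ x = Θo x := by rw [hΘx, hχx0]; ring
      have e2 : deriv Θ x = (1 - ν x ^ 2) * Hzero g W κ1 κ2 x (Θo x) := by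
        rw [hΘd, hχdx0]; ring
      obtain ⟨d1, d2⟩ := hHdamp x (Θo x) (ν x ^ 2) (hνsq x)
      have hN : W x - Qform g κ1 κ2 x (Θ x) (deriv Θ x) = ν x ^ 2 * Pp x := by
        rw [e1, e2, d1, hPpx]
      have hNt : Nt x = Pp x := by rw [hNtx, hN]; ring
      have hPp : 0 < Pp x := by rw [hPpx]; exact d2
      exact ⟨by rw [hN, hNt], by rw [hNt]; exact hPp⟩
    · have hx2x : x₂ ≤ |x| := by linarith
      have hν : ν x = 1 := hνo x hx2x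
      have e2 : deriv Θ x = deriv χ x * (Real.pi / 4 - Θp) := by rw [hΘd, hν]; ring
      have hab : |deriv Θ x| ≤ C * (Real.pi / 4) := by
        rw [e2, abs_mul]
        have hh : |Real.pi / 4 - Θp| ≤ Real.pi / 4 := by
          rw [abs_of_nonneg (by linarith [hΘp.2])]
          linarith [hΘp.1]
        exact mul_le_mul (hχd x) hh (abs_nonneg _) hC0.le
      have hlt := hS x (Θ x) (deriv Θ x) hab
      have hNt : Nt x = W x - Qform g κ1 κ2 x (Θ x) (deriv Θ x) := by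
        rw [hNtx, hν]; ring
      exact ⟨by rw [hNt, hν]; ring, by rw [hNt]; linarith⟩
  refine ⟨x₂ / 2, ν, Θ, Nt, half_pos hx2, hνs, hΘs, ?_, hνe, hΘodd, ?_,
    fun x => (hzone x).2, ?_, ?_, ?_, ?_, fun x => (hzone x).1⟩
  · have hHo : ContDiff ℝ ∞ (fun x => Hzero g W κ1 κ2 x (Θo x)) :=
      hHs.comp (contDiff_id.prodMk hΘos)
    have hA := lt_contDiff_Acoef hd.sg hΘos κ1 κ2
    have hB := lt_contDiff_Bcoef hd.sg hΘos κ1 κ2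
    have hQ := lt_contDiff_Qform hd.sg hΘs κ1 κ2
    have hPp : ContDiff ℝ ∞ Pp := by
      rw [hPpdef]
      exact hHo.mul (((hA.mul hHo).mul (contDiff_const.sub (hνs.pow 2))).add
        (contDiff_const.mul hB))
    rw [hNtdef]
    exact (hd.sW.sub hQ).add ((contDiff_const.sub (hνs.pow 2)).mul hPp)
  · intro x
    have hdΘ : deriv Θ (-x) = deriv Θ x := lt_deriv_of_odd hΘodd x
    have hPpe : Pp (-x) = Pp x := by
      rw [hPpx, hPpx, hΘoo, hHsym, lt_Acoef_symm hd.eg, lt_Bcoef_symm hd.eg, hνe]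
    rw [hNtx, hNtx, hd.eW, hΘodd, hdΘ, lt_Qform_symm hd.eg, hνe, hPpe]
  · intro x hx
    exact hνz x hx.le
  · intro x hx
    apply hνo
    rw [abs_of_nonneg (by linarith)]
    linarith
  · intro x hx
    rcases lt_or_ge x x₂ with hlt | hge
    · have hχx0 : χ x = 0 := hχ0 x (by rw [abs_of_pos hx]; linarith)
      have e1 : Θ x = Θo x := by rw [hΘx, hχx0]; ring
      rw [e1]
      exact hΘopos x hx
    · have e1 : Θ x = Θp + χ x * (Real.pi / 4 - Θp) := by rw [hΘx, hΘoc x hge]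
      obtain ⟨c0, c1⟩ := hχ01 x hx.le
      have hq : 0 ≤ Real.pi / 4 - Θp := by linarith [hΘp.2]
      rw [e1]
      constructor
      · nlinarith [mul_nonneg c0 hq, hΘp.1]
      · nlinarith [mul_le_mul_of_nonneg_right c1 hq]
  · intro x hx
    rw [hΘx, hΘoc x (by linarith), hχ1 x hx]
    ring

theorem exists_local_theta : ∃ P₀ : ℝ, 0 < P₀ ∧ ∀ (g W : ℝ → ℝ) (κ1 κ2 : ℝ), Data g W →
    0 < κ1 → 0 < κ2 → Small g W κ1 κ2 P₀ →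
    ∃ (a : ℝ) (ν Θ Nt : ℝ → ℝ), 0 < a ∧ ContDiff ℝ ∞ ν ∧ ContDiff ℝ ∞ Θ ∧ ContDiff ℝ ∞ Nt ∧
      (∀ x, ν (-x) = ν x) ∧ (∀ x, Θ (-x) = -Θ x) ∧ (∀ x, Nt (-x) = Nt x) ∧ (∀ x, 0 < Nt x) ∧
      (∀ x, |x| < a → ν x = 0) ∧ (∀ x, 3 / 32 ≤ x → ν x = 1) ∧
      (∀ x, 0 < x → 0 < Θ x ∧ Θ x ≤ Real.pi / 4) ∧ (∀ x, 3 / 32 ≤ x → Θ x = Real.pi / 4) ∧
      ∀ x, W x - Qform g κ1 κ2 x (Θ x) (deriv Θ x) = ν x ^ 2 * Nt x := by
  obtain ⟨χ, C, hC0, hχs, hχo, hχ0, hχ1, hχ01, hχd⟩ := exists_chi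
  refine ⟨C * (Real.pi / 4), mul_pos hC0 (by positivity), ?_⟩
  intro g W κ1 κ2 hd h1 h2 hS
  exact lt_core g W κ1 κ2 hd h1 h2 χ C hC0 hχs hχo hχ0 hχ1 hχ01 hχd hS

end Vale.Agent.H55.KB
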