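import Mathlib

/-!
Global odd solutions of a scalar ordinary differential equation `Θ' = V(x, Θ)` with a smooth,
bounded, uniformly Lipschitz right-hand side that vanishes for `|x| ≥ 1` and is invariant under
the map sending the pair `x`, `θ` to `-x`, `-θ`.

TASK KB-ODE (done; the statement is kept exactly).
1. Picard-Lindelof on `Icc (-2) 2` with `t₀ = 0`, `x₀ = 0`: `IsPicardLindelof V t₀ 0 a 0 L K'`
   holds with `L = M` (as `NNReal`; `M ≥ 0` follows from `hM`), `a = 2 * M`, `K' = K`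
   (`K ≥ 0` follows from `hK`): the Lipschitz and norm bounds are global, continuity in time from
   `hV`.  `IsPicardLindelof.exists_eq_forall_mem_Icc_hasDerivWithinAt₀` gives `α` with `α 0 = 0`
   and `HasDerivWithinAt α (V t (α t)) (Icc (-2) 2) t` on `Icc (-2) 2`.
2. Smoothness on `Icc (-2) 2`: `ODE.contDiffOn_enat_Icc_of_hasDerivWithinAt` with `u = univ`.
3. Oddness on `Icc (-2) 2`: `β t = -α (-t)` solves the same equation (by `hsym`) with
   `β 0 = 0`; uniqueness `ODE_solution_unique_of_mem_Icc` (Gronwall), Lipschitz constant `K`.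
4. `V t θ = 0` for `1 ≤ |t|`, so `α` has zero derivative on `Icc 1 2` and on `Icc (-2) (-1)`,
   hence is constant there.  Define `Θ x = α (max (-3/2) (min x (3/2)))` (or by cases).  Then
   `Θ = α` on `Ioo (-2) 2`... more precisely `Θ = α` on `Icc (-3/2) (3/2)` and `Θ` is locally
   constant for `1 < |x|`; smoothness and `HasDerivAt` follow locally (`ContDiffAt` via
   `Filter.EventuallyEq`), oddness from step 3.
-/

namespace Vale.Agent.H55.KB

open scoped ContDiff

/-- Clamping to the interval `[-3/2, 3/2]`. -/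
noncomputable def od_clamp (x : ℝ) : ℝ := max (-3 / 2) (min x (3 / 2))

theorem od_clamp_neg (x : ℝ) : od_clamp (-x) = -od_clamp x := by
  unfold od_clamp
  simp only [max_def, min_def]
  split_ifs <;> linarith

theorem od_clamp_zero : od_clamp 0 = 0 := by
  unfold od_clamp
  simp only [max_def, min_def]
  split_ifs <;> linarith

theorem od_clamp_mem (x : ℝ) : od_clamp x ∈ Set.Icc (-3 / 2 : ℝ) (3 / 2) := by
  unfold od_clamp
  simp only [max_def, min_def]
  constructor <;> split_ifs <;> linarith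

theorem od_clamp_of_mem {x : ℝ} (hx : x ∈ Set.Icc (-3 / 2 : ℝ) (3 / 2)) : od_clamp x = x := by
  obtain ⟨h1, h2⟩ := hx
  unfold od_clamp
  simp only [max_def, min_def]
  split_ifs <;> linarith

theorem od_clamp_of_one_lt {x : ℝ} (hx : 1 < x) : od_clamp x ∈ Set.Icc (1 : ℝ) (3 / 2) := by
  unfold od_clamp
  simp only [max_def, min_def]
  constructor <;> split_ifs <;> linarith

theorem od_clamp_of_lt_neg_one {x : ℝ} (hx : x < -1) :
    od_clamp x ∈ Set.Icc (-3 / 2 : ℝ) (-1) := by
  unfold od_clamp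
  simp only [max_def, min_def]
  constructor <;> split_ifs <;> linarith

theorem exists_odd_solution (V : ℝ → ℝ → ℝ)
    (hV : ContDiff ℝ ∞ (fun q : ℝ × ℝ => V q.1 q.2)) (M K : ℝ)
    (hM : ∀ x θ, |V x θ| ≤ M) (hK : ∀ x θ₁ θ₂, |V x θ₁ - V x θ₂| ≤ K * |θ₁ - θ₂|)
    (hsym : ∀ x θ, V (-x) (-θ) = V x θ) (hsupp : ∀ x θ, 1 ≤ |x| → V x θ = 0) :
    ∃ Θ : ℝ → ℝ, ContDiff ℝ ∞ Θ ∧ Θ 0 = 0 ∧ (∀ x, Θ (-x) = -Θ x) ∧
      ∀ x, HasDerivAt Θ (V x (Θ x)) x := by
  have hM0 : 0 ≤ M := le_trans (abs_nonneg _) (hM 0 0)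
  have hK0 : 0 ≤ K := by
    have h := hK 0 0 1
    have h1 : |(0 : ℝ) - 1| = 1 := by norm_num
    rw [h1, mul_one] at h
    exact le_trans (abs_nonneg _) h
  have h0mem : (0 : ℝ) ∈ Set.Icc (-2 : ℝ) 2 := ⟨by norm_num, by norm_num⟩
  obtain ⟨L, hL⟩ : ∃ L : NNReal, (L : ℝ) = M := ⟨⟨M, hM0⟩, rfl⟩
  obtain ⟨K', hK'⟩ : ∃ K' : NNReal, (K' : ℝ) = K := ⟨⟨K, hK0⟩, rfl⟩
  have hlip : ∀ t : ℝ, LipschitzWith K' (V t) := fun t =>
    LipschitzWith.of_dist_le_mul fun a b => by
      rw [Real.dist_eq, Real.dist_eq, hK']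
      exact hK t a b
  have hPL : IsPicardLindelof V (⟨0, h0mem⟩ : Set.Icc (-2 : ℝ) 2) (0 : ℝ) (2 * L) 0 L K' := by
    refine ⟨?_, ?_, ?_, ?_⟩
    · intro t _
      exact (hlip t).lipschitzOnWith
    · intro x _
      have hc : Continuous (fun t : ℝ => V t x) :=
        hV.continuous.comp (Continuous.prodMk continuous_id continuous_const)
      exact hc.continuousOn
    · intro t _ x _
      rw [Real.norm_eq_abs, hL]
      exact hM t x
    · have e : max ((2 : ℝ) - 0) (0 - (-2)) = 2 := by norm_num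
      show (L : ℝ) * max ((2 : ℝ) - 0) (0 - (-2)) ≤ ((2 * L : NNReal) : ℝ) - ((0 : NNReal) : ℝ)
      rw [e]
      push_cast
      linarith
  obtain ⟨α, hα0', hα⟩ := hPL.exists_eq_forall_mem_Icc_hasDerivWithinAt₀
  have hα0 : α 0 = 0 := hα0'
  have hαd : ∀ t ∈ Set.Ioo (-2 : ℝ) 2, HasDerivAt α (V t (α t)) t := fun t ht =>
    (hα t (Set.Ioo_subset_Icc_self ht)).hasDerivAt (Icc_mem_nhds ht.1 ht.2)
  have hαsmooth : ContDiffOn ℝ ∞ α (Set.Icc (-2 : ℝ) 2) := by
    have hf : ContDiffOn ℝ ((⊤ : ℕ∞) : WithTop ℕ∞) (Function.uncurry V)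
        (Set.Icc (-2 : ℝ) 2 ×ˢ (Set.univ : Set ℝ)) := hV.contDiffOn
    exact ODE.contDiffOn_enat_Icc_of_hasDerivWithinAt hf hα (Set.mapsTo_univ _ _)
  -- oddness of `α` on the open interval
  have hodd : ∀ t ∈ Set.Ioo (-2 : ℝ) 2, α (-t) = -α t := by
    have hβd : ∀ t ∈ Set.Ioo (-2 : ℝ) 2,
        HasDerivAt (fun s => -α (-s)) (V t (-α (-t))) t := by
      intro t ht
      have hnt : -t ∈ Set.Ioo (-2 : ℝ) 2 := ⟨by linarith [ht.2], by linarith [ht.1]⟩
      have h1 : HasDerivAt (fun s : ℝ => -s) (-1) t := (hasDerivAt_id t).neg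
      have h2 : HasDerivAt (fun s : ℝ => α (-s)) (V (-t) (α (-t)) * -1) t :=
        (hαd (-t) hnt).comp t h1
      have h3 := h2.neg
      have e : -(V (-t) (α (-t)) * -1) = V t (-α (-t)) := by
        rw [← hsym t (-α (-t)), neg_neg]
        ring
      rw [e] at h3
      exact h3
    have huniq := ODE_solution_unique_of_mem_Ioo (v := V) (s := fun _ => Set.univ)
      (K := K') (f := α) (g := fun s => -α (-s)) (t₀ := 0) (a := -2) (b := 2)
      (fun t _ => (hlip t).lipschitzOnWith) ⟨by norm_num, by norm_num⟩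
      (fun t ht => ⟨hαd t ht, Set.mem_univ _⟩) (fun t ht => ⟨hβd t ht, Set.mem_univ _⟩)
      (by simp [hα0])
    intro t ht
    have h := huniq ht
    simp only at h
    linarith
  -- `α` is constant on `[1, 3/2]` and on `[-3/2, -1]`
  have hcont : ContinuousOn α (Set.Icc (-2 : ℝ) 2) := hαsmooth.continuousOn
  have hconst1 : ∀ x ∈ Set.Icc (1 : ℝ) (3 / 2), α x = α 1 := by
    refine constant_of_has_deriv_right_zero (hcont.mono ?_) ?_
    · intro x hx
      exact ⟨by linarith [hx.1], by linarith [hx.2]⟩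
    · intro x hx
      have hx' : x ∈ Set.Ioo (-2 : ℝ) 2 := ⟨by linarith [hx.1], by linarith [hx.2]⟩
      have h := hαd x hx'
      rw [hsupp x (α x) (by rw [abs_of_nonneg (by linarith [hx.1])]; exact hx.1)] at h
      exact h.hasDerivWithinAt
  have hconst2 : ∀ x ∈ Set.Icc (-3 / 2 : ℝ) (-1), α x = α (-3 / 2) := by
    refine constant_of_has_deriv_right_zero (hcont.mono ?_) ?_
    · intro x hx
      exact ⟨by linarith [hx.1], by linarith [hx.2]⟩
    · intro x hx
      have hx' : x ∈ Set.Ioo (-2 : ℝ) 2 := ⟨by linarith [hx.1], by linarith [hx.2]⟩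
      have h := hαd x hx'
      rw [hsupp x (α x) (by rw [abs_of_neg (by linarith [hx.2])]; linarith [hx.2])] at h
      exact h.hasDerivWithinAt
  -- the global solution
  refine ⟨fun x => α (od_clamp x), ?_, ?_, ?_, ?_⟩
  · -- smoothness
    rw [contDiff_iff_contDiffAt]
    intro x
    rcases lt_or_ge x (-1) with hx | hx
    · have hev : (fun y => α (od_clamp y)) =ᶠ[nhds x] fun _ => α (-3 / 2) := by
        filter_upwards [Iio_mem_nhds hx] with y hy
        exact hconst2 _ (od_clamp_of_lt_neg_one hy)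
      exact contDiffAt_const.congr_of_eventuallyEq hev
    rcases lt_or_ge 1 x with hx1 | hx1
    · have hev : (fun y => α (od_clamp y)) =ᶠ[nhds x] fun _ => α 1 := by
        filter_upwards [Ioi_mem_nhds hx1] with y hy
        exact hconst1 _ (od_clamp_of_one_lt hy)
      exact contDiffAt_const.congr_of_eventuallyEq hev
    · have hmem : Set.Ioo (-3 / 2 : ℝ) (3 / 2) ∈ nhds x :=
        Ioo_mem_nhds (by linarith) (by linarith)
      have hev : (fun y => α (od_clamp y)) =ᶠ[nhds x] α := by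
        filter_upwards [hmem] with y hy
        rw [od_clamp_of_mem ⟨hy.1.le, hy.2.le⟩]
      have hα' : ContDiffAt ℝ ∞ α x :=
        hαsmooth.contDiffAt (Icc_mem_nhds (by linarith) (by linarith))
      exact hα'.congr_of_eventuallyEq hev
  · show α (od_clamp 0) = 0
    rw [od_clamp_zero, hα0]
  · intro x
    show α (od_clamp (-x)) = -α (od_clamp x)
    rw [od_clamp_neg]
    have h := od_clamp_mem x
    exact hodd _ ⟨by linarith [h.1], by linarith [h.2]⟩
  · intro x
    show HasDerivAt (fun y => α (od_clamp y)) (V x (α (od_clamp x))) x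
    rcases lt_or_ge x (-1) with hx | hx
    · have hev : (fun y => α (od_clamp y)) =ᶠ[nhds x] fun _ => α (-3 / 2) := by
        filter_upwards [Iio_mem_nhds hx] with y hy
        exact hconst2 _ (od_clamp_of_lt_neg_one hy)
      rw [hsupp x _ (by rw [abs_of_neg (by linarith)]; linarith)]
      exact (hasDerivAt_const x (α (-3 / 2))).congr_of_eventuallyEq hev
    rcases lt_or_ge 1 x with hx1 | hx1
    · have hev : (fun y => α (od_clamp y)) =ᶠ[nhds x] fun _ => α 1 := by
        filter_upwards [Ioi_mem_nhds hx1] with y hy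
        exact hconst1 _ (od_clamp_of_one_lt hy)
      rw [hsupp x _ (by rw [abs_of_pos (by linarith)]; linarith)]
      exact (hasDerivAt_const x (α 1)).congr_of_eventuallyEq hev
    · have hmem : Set.Ioo (-3 / 2 : ℝ) (3 / 2) ∈ nhds x :=
        Ioo_mem_nhds (by linarith) (by linarith)
      have hev : (fun y => α (od_clamp y)) =ᶠ[nhds x] α := by
        filter_upwards [hmem] with y hy
        rw [od_clamp_of_mem ⟨hy.1.le, hy.2.le⟩]
      rw [od_clamp_of_mem ⟨by linarith, by linarith⟩]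
      exact (hαd x ⟨by linarith, by linarith⟩).congr_of_eventuallyEq hev

end Vale.Agent.H55.KB
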