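import Vale.Agent.H55.KB.Hzero
import Vale.Agent.H55.KB.Bdd
import Vale.Agent.H55.KB.Ode
import Vale.Agent.H55.KB.Cut

/-!
The angle profile near a crossing: an odd solution of the damped equation
`Θ' = (1 - ν²) Hzero(x, Θ)` which is constant for `x ≥ x₂`.

TASK KB-ZONE (proved below; the imported lemmas
`hzero_props`, `exists_bound_lipschitz`, `exists_odd_solution`, `exists_nu` may be used as they
are stated, whether or not their proofs have landed).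
1. `hzero_props` gives: `H = Hzero g W κ1 κ2` smooth in `(x, θ)`, positive, symmetric under
   `(x, θ) ↦ (-x, -θ)`, `1`-periodic in `x`, `π`-periodic in `θ`.
2. `exists_bound_lipschitz` applied to `H` gives `M > 0`, `K ≥ 0`.
3. `x₂ = min (1/32) (π / (4 M))`, `ν` from `exists_nu x₂`.
4. `V x θ = (1 - ν x ^ 2) * H x θ`: smooth, `|V| ≤ M` and `K`-Lipschitz in `θ`
   (`0 ≤ 1 - ν² ≤ 1`), symmetric, zero for `1 ≤ |x|` (`ν = 1` there).  `exists_odd_solution`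
   gives `Θo`.
5. `Θo' ≥ 0` everywhere, so `Θo` is monotone (`monotone_of_deriv_nonneg`); `Θo' = H > 0` on
   `|x| ≤ x₂/2`, so `Θo` is strictly monotone on `Icc 0 (x₂/2)`; with `Θo 0 = 0` this gives
   `0 < Θo x` for `0 < x`.  `Θo' = 0` for `x₂ ≤ x`, so `Θo x = Θo x₂ =: Θp` there
   (`is_const_of_deriv_eq_zero`-type argument on `Ici x₂`, or the mean value theorem).  Upper
   bound: for `0 ≤ x ≤ x₂` the mean value inequality gives `Θo x ≤ M * x ≤ M * x₂ ≤ π/4`.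
-/

namespace Vale.Agent.H55.KB

open scoped ContDiff

theorem exists_ode_zone (g W : ℝ → ℝ) (κ1 κ2 : ℝ) (hd : Data g W) (h1 : 0 < κ1) (h2 : 0 < κ2)
    (hC : ∀ x θ, Ccoef g κ1 κ2 x θ < W x) :
    ∃ (x₂ Θp : ℝ) (ν Θo : ℝ → ℝ), 0 < x₂ ∧ x₂ ≤ 1 / 32 ∧
      ContDiff ℝ ∞ ν ∧ ContDiff ℝ ∞ Θo ∧ (∀ x, ν (-x) = ν x) ∧ (∀ x, 0 ≤ ν x) ∧
      (∀ x, ν x ≤ 1) ∧ (∀ x, |x| ≤ x₂ / 2 → ν x = 0) ∧ (∀ x, x₂ ≤ |x| → ν x = 1) ∧
      (∀ x, Θo (-x) = -Θo x) ∧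
      (∀ x, HasDerivAt Θo ((1 - ν x ^ 2) * Hzero g W κ1 κ2 x (Θo x)) x) ∧
      (∀ x, 0 < x → 0 < Θo x ∧ Θo x ≤ Real.pi / 4) ∧ (∀ x, x₂ ≤ x → Θo x = Θp) := by
  obtain ⟨hHs, hHpos, -, hHsym, hHp1, hHp2, -⟩ := hzero_props g W κ1 κ2 hd h1 h2 hC
  obtain ⟨M, K, hMpos, hK0, hMb, hKl⟩ :=
    exists_bound_lipschitz (Hzero g W κ1 κ2) hHs hHp1 hHp2
  have hpi : 0 < Real.pi := Real.pi_pos
  have hx₂ : 0 < min (1 / 32 : ℝ) (Real.pi / (4 * M)) := lt_min (by norm_num) (by positivity)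
  obtain ⟨x₂, hx₂def⟩ : ∃ x₂ : ℝ, x₂ = min (1 / 32 : ℝ) (Real.pi / (4 * M)) := ⟨_, rfl⟩
  have hx₂pos : 0 < x₂ := hx₂def ▸ hx₂
  have hx₂le : x₂ ≤ 1 / 32 := hx₂def ▸ min_le_left _ _
  have hMx : M * x₂ ≤ Real.pi / 4 := by
    have h : x₂ ≤ Real.pi / (4 * M) := hx₂def ▸ min_le_right _ _
    calc M * x₂ ≤ M * (Real.pi / (4 * M)) := mul_le_mul_of_nonneg_left h hMpos.le
      _ = Real.pi / 4 := by field_simp
  obtain ⟨ν, hνs, hνev, hν0, hν1, hνz, hνo⟩ := exists_nu x₂ hx₂pos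
  have zn_fac0 : ∀ x, 0 ≤ 1 - ν x ^ 2 := fun x => by nlinarith [hν0 x, hν1 x]
  have zn_fac1 : ∀ x, 1 - ν x ^ 2 ≤ 1 := fun x => by nlinarith [sq_nonneg (ν x)]
  have hVs : ContDiff ℝ ∞ (fun q : ℝ × ℝ => (1 - ν q.1 ^ 2) * Hzero g W κ1 κ2 q.1 q.2) :=
    (contDiff_const.sub ((hνs.comp contDiff_fst).pow 2)).mul hHs
  have hVM : ∀ x θ, |(1 - ν x ^ 2) * Hzero g W κ1 κ2 x θ| ≤ M := by
    intro x θ
    rw [abs_mul, abs_of_nonneg (zn_fac0 x)]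
    calc (1 - ν x ^ 2) * |Hzero g W κ1 κ2 x θ| ≤ 1 * M :=
          mul_le_mul (zn_fac1 x) (hMb x θ) (abs_nonneg _) zero_le_one
      _ = M := one_mul M
  have hVK : ∀ x θ₁ θ₂, |(1 - ν x ^ 2) * Hzero g W κ1 κ2 x θ₁
      - (1 - ν x ^ 2) * Hzero g W κ1 κ2 x θ₂| ≤ K * |θ₁ - θ₂| := by
    intro x θ₁ θ₂
    rw [← mul_sub, abs_mul, abs_of_nonneg (zn_fac0 x)]
    calc (1 - ν x ^ 2) * |Hzero g W κ1 κ2 x θ₁ - Hzero g W κ1 κ2 x θ₂|
        ≤ 1 * (K * |θ₁ - θ₂|) :=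
          mul_le_mul (zn_fac1 x) (hKl x θ₁ θ₂) (abs_nonneg _) zero_le_one
      _ = K * |θ₁ - θ₂| := one_mul _
  have hVsym : ∀ x θ, (1 - ν (-x) ^ 2) * Hzero g W κ1 κ2 (-x) (-θ)
      = (1 - ν x ^ 2) * Hzero g W κ1 κ2 x θ := by
    intro x θ
    rw [hνev, hHsym]
  have hVsupp : ∀ x θ, 1 ≤ |x| → (1 - ν x ^ 2) * Hzero g W κ1 κ2 x θ = 0 := by
    intro x θ hx
    rw [hνo x (by linarith)]
    ring
  obtain ⟨Θ, hΘs, hΘ0, hΘodd, hΘd⟩ := exists_odd_solution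
    (fun x θ => (1 - ν x ^ 2) * Hzero g W κ1 κ2 x θ) hVs M K hVM hVK hVsym hVsupp
  have hΘd' : ∀ x, HasDerivAt Θ ((1 - ν x ^ 2) * Hzero g W κ1 κ2 x (Θ x)) x := fun x => hΘd x
  have hderiv : ∀ x, deriv Θ x = (1 - ν x ^ 2) * Hzero g W κ1 κ2 x (Θ x) :=
    fun x => (hΘd' x).deriv
  have hdiff : Differentiable ℝ Θ := fun x => (hΘd' x).differentiableAt
  have hmono : Monotone Θ := monotone_of_deriv_nonneg hdiff (fun x => by
    rw [hderiv]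
    exact mul_nonneg (zn_fac0 x) (hHpos x _).le)
  have hbound : ∀ x, |Θ x| ≤ M * |x| := by
    intro x
    have h := Convex.norm_image_sub_le_of_norm_deriv_le (f := Θ) (s := Set.univ) (C := M)
      (x := 0) (y := x) (fun t _ => hdiff t)
      (fun t _ => by rw [Real.norm_eq_abs, hderiv]; exact hVM t _) convex_univ
      (Set.mem_univ _) (Set.mem_univ _)
    simpa [hΘ0, Real.norm_eq_abs] using h
  have hconst : ∀ x, x₂ ≤ x → Θ x = Θ x₂ := by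
    intro x hx
    have h := Convex.norm_image_sub_le_of_norm_deriv_le (f := Θ) (s := Set.Ici x₂) (C := 0)
      (x := x₂) (y := x) (fun t _ => hdiff t)
      (fun t ht => by
        have ht' : x₂ ≤ |t| := le_trans ht (le_abs_self t)
        rw [hderiv, hνo t ht']
        simp) (convex_Ici _) Set.self_mem_Ici hx
    rw [zero_mul] at h
    have h0 := norm_le_zero_iff.1 h
    linarith
  have hx₂bd : Θ x₂ ≤ Real.pi / 4 := by
    have h := hbound x₂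
    rw [abs_of_pos hx₂pos] at h
    exact le_trans (le_trans (le_abs_self _) h) hMx
  have hsm : StrictMonoOn Θ (Set.Icc 0 (x₂ / 2)) := by
    apply strictMonoOn_of_deriv_pos (convex_Icc _ _) hΘs.continuous.continuousOn
    intro t ht
    rw [interior_Icc] at ht
    have ht' : |t| ≤ x₂ / 2 := by
      rw [abs_of_pos ht.1]
      exact ht.2.le
    rw [hderiv, hνz t ht']
    simpa using hHpos t (Θ t)
  refine ⟨x₂, Θ x₂, ν, Θ, hx₂pos, hx₂le, hνs, hΘs, hνev, hν0, hν1, hνz, hνo, hΘodd, hΘd', ?_,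
    hconst⟩
  intro x hx
  constructor
  · have hy : 0 < min x (x₂ / 2) := lt_min hx (by linarith)
    have h3 : Θ 0 < Θ (min x (x₂ / 2)) :=
      hsm (Set.left_mem_Icc.2 (by linarith)) ⟨hy.le, min_le_right _ _⟩ hy
    have h4 : Θ (min x (x₂ / 2)) ≤ Θ x := hmono (min_le_left _ _)
    rw [hΘ0] at h3
    linarith
  · have h3 : Θ x ≤ Θ (max x x₂) := hmono (le_max_left _ _)
    have h4 : Θ (max x x₂) = Θ x₂ := hconst _ (le_max_right _ _)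
    linarith

end Vale.Agent.H55.KB
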