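import Vale.Agent.H55.KB.LocTheta
import Vale.Agent.H55.KB.Div

/-!
The local solution of the profile equation near a crossing: an odd pair `(Θ, D)` defined on the
whole line, equal to the plateau solution `(π/4, Dpl)` for `x ≥ 1/8`.
-/

namespace Vale.Agent.H55.KB

open scoped ContDiff

theorem exists_local_profile : ∃ P₀ : ℝ, 0 < P₀ ∧ ∀ (g W : ℝ → ℝ) (κ1 κ2 : ℝ), Data g W →
    0 < κ1 → 0 < κ2 → Small g W κ1 κ2 P₀ →
    ∃ Θ D : ℝ → ℝ, ContDiff ℝ ∞ Θ ∧ ContDiff ℝ ∞ D ∧ (∀ x, Θ (-x) = -Θ x) ∧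
      (∀ x, D (-x) = -D x) ∧ (∀ x, 1 / 8 ≤ x → Θ x = Real.pi / 4) ∧
      (∀ x, 1 / 8 ≤ x → D x = Dpl g W κ1 κ2 x) ∧ ProfEq g W κ1 κ2 Θ D := by
  obtain ⟨P₀, hP₀, hloc⟩ := exists_local_theta
  refine ⟨P₀, hP₀, fun g W κ1 κ2 hd h1 h2 hs => ?_⟩
  obtain ⟨a, ν, Θ, Nt, ha, sν, sΘ, sN, eν, oΘ, eN, Npos, hν0, hν1, hΘpos, hΘpl, hdef⟩ :=
    hloc g W κ1 κ2 hd h1 h2 hs
  obtain ⟨D, sD, oD, hD2, hDf⟩ :=
    exists_D g ν Θ Nt a ha hd.sg sν sΘ sN hd.eg hd.gpos eν oΘ eN Npos hν0 hΘpos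
  refine ⟨Θ, D, sΘ, sD, oΘ, oD, fun x hx => hΘpl x (by linarith), ?_, ?_⟩
  · intro x hx
    have hx0 : (0 : ℝ) < x := by linarith
    have hν : ν x = 1 := hν1 x (by linarith)
    have hΘx : Θ x = Real.pi / 4 := hΘpl x (by linarith)
    have hder : deriv Θ x = 0 := by
      have hev : Θ =ᶠ[nhds x] fun _ => Real.pi / 4 := by
        filter_upwards [Ioi_mem_nhds (show (3 : ℝ) / 32 < x by linarith)] with y hy
        exact hΘpl y (le_of_lt hy)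
      rw [hev.deriv_eq]
      simp
    have hN := hdef x
    rw [hΘx, hder, hν] at hN
    have hNt : Nt x = W x - Qform g κ1 κ2 x (Real.pi / 4) 0 := by linarith
    have hg := hd.gpos x
    have hsq : Real.sqrt 2 * Real.sqrt 2 = 2 := Real.mul_self_sqrt (by norm_num)
    rw [hDf x hx0, hν, hΘx, hNt]
    unfold Dpl
    rw [Real.sin_pi_div_four, Real.cos_pi_div_four]
    have e : g x * (Real.sqrt 2 / 2) * (Real.sqrt 2 / 2) = g x / 2 := by
      linear_combination (g x / 4) * hsq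
    rw [e]
    field_simp
  · intro x
    have h1' := hdef x
    have h2' := hD2 x
    linarith

end Vale.Agent.H55.KB
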