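import Vale.Agent.H55.KB.Defs
import Vale.Agent.H55.EquivImm
import Vale.Agent.H55.Primitive

/-!
From an odd periodic solution `(Θ, D)` of the profile equation to an isometric immersion of the
Klein bottle `ℝ² / ⟨(x, y) ↦ (x + 1, y), (x, y) ↦ (-x, y + 1)⟩`.

Row KB-POLAR (done).  Adapted from `Vale.Agent.H55.Imm.exists_immersion_of_polar` (`Vale/Agent/H55/EquivImm.lean`).
With `κ1 = (2 n + 1) π`, `κ2 = 2 n π` (both nonzero as `1 ≤ n`), `s = sin ∘ Θ`, `c = cos ∘ Θ`,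
`φ = F / G`:
  `ρ1 = g * s / κ1` (odd, periodic),  `ρ2 = g * c / κ2` (even, periodic),
  `θ1 = prim (fun x => κ1 * (φ x + c x ^ 2 * D x))`,
  `θ2 = prim (fun x => κ2 * (φ x - s x ^ 2 * D x))`   (`prim` from `Primitive.lean`),
  `b1 = ρ1 cos θ1`, `b2 = ρ1 sin θ1`, `d1 = ρ2 cos θ2`, `d2 = ρ2 sin θ2`,
  `Φ = Imm.equivMap κ1 κ2 b1 b2 d1 d2`.
* the integrands are smooth, odd and `1`-periodic, so `θ1, θ2` are smooth, even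
  (`intervalIntegral.integral_comp_neg`) and `1`-periodic (`prim_add_one`; `prim u 1 = 0` for an
  odd `1`-periodic `u`: `∫₀¹ u = ∫_{-1}^0 u = -∫₀¹ u` by periodicity and oddness).
* hence `b1, b2` are odd and `d1, d2` even, all `1`-periodic; `Φ (x + 1, y) = Φ (x, y)`; and
  `Φ (-x, y + 1) = Φ (x, y)` because `cos (κ1 (y + 1)) = -cos (κ1 y)`,
  `sin (κ1 (y + 1)) = -sin (κ1 y)` (`κ1` an odd multiple of `π`) and
  `cos (κ2 (y + 1)) = cos (κ2 y)`, `sin (κ2 (y + 1)) = sin (κ2 y)`.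
* metric (`Imm.equivMap_metric`, `Imm.deriv_polar_cos`, `Imm.deriv_polar_sin`,
  `deriv_prim`):
  `κ1² ρ1² + κ2² ρ2² = g² = G`;
  `κ1 ρ1² θ1' + κ2 ρ2² θ2' = g² φ = F`;
  `ρ1'² + ρ2'² = Qform g κ1 κ2 x (Θ x) (deriv Θ x)` and
  `ρ1² θ1'² + ρ2² θ2'² = g² φ² + g² s² c² D² = F² / G + g² s² c² D²`, so the sum is `E` by
  `hEQ` and `hW`.
-/

namespace Vale.Agent.H55.KB

open scoped ContDiff

theorem pl_prim_even (u : ℝ → ℝ) (ou : ∀ x, u (-x) = -u x) (x : ℝ) :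
    Imm.prim u (-x) = Imm.prim u x := by
  unfold Imm.prim
  have h := intervalIntegral.integral_comp_neg (f := u) (a := 0) (b := x)
  rw [neg_zero] at h
  have h2 : (∫ t in (0 : ℝ)..x, u (-t)) = -∫ t in (0 : ℝ)..x, u t := by
    rw [← intervalIntegral.integral_neg]
    exact intervalIntegral.integral_congr (fun t _ => ou t)
  have h3 : (∫ t in (0 : ℝ)..(-x), u t) = -∫ t in (-x)..(0 : ℝ), u t :=
    intervalIntegral.integral_symm (-x) 0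
  linarith

theorem pl_prim_one (u : ℝ → ℝ) (hu : Continuous u) (ou : ∀ x, u (-x) = -u x)
    (pu : ∀ x, u (x + 1) = u x) : Imm.prim u 1 = 0 := by
  have h := Imm.prim_add_one u hu pu (-1)
  have h0 : Imm.prim u 0 = 0 := by
    unfold Imm.prim
    simp
  have he := pl_prim_even u ou 1
  rw [show (-1 : ℝ) + 1 = 0 by norm_num, h0, he] at h
  linarith

theorem pl_prim_periodic (u : ℝ → ℝ) (hu : Continuous u) (ou : ∀ x, u (-x) = -u x)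
    (pu : ∀ x, u (x + 1) = u x) (x : ℝ) : Imm.prim u (x + 1) = Imm.prim u x := by
  rw [Imm.prim_add_one u hu pu x, pl_prim_one u hu ou pu, add_zero]

/-- The Klein bottle version of the polar reduction. -/
theorem pl_polar (E F G : ℝ → ℝ) (ρ1 θ1 ρ2 θ2 : ℝ → ℝ) (κ1 κ2 : ℝ)
    (c1 : ∀ y : ℝ, Real.cos (κ1 * (y + 1)) = -Real.cos (κ1 * y))
    (s1 : ∀ y : ℝ, Real.sin (κ1 * (y + 1)) = -Real.sin (κ1 * y))
    (c2 : ∀ y : ℝ, Real.cos (κ2 * (y + 1)) = Real.cos (κ2 * y))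
    (s2 : ∀ y : ℝ, Real.sin (κ2 * (y + 1)) = Real.sin (κ2 * y))
    (hρ1 : ContDiff ℝ ∞ ρ1) (hθ1 : ContDiff ℝ ∞ θ1) (hρ2 : ContDiff ℝ ∞ ρ2)
    (hθ2 : ContDiff ℝ ∞ θ2)
    (pρ1 : ∀ x, ρ1 (x + 1) = ρ1 x) (pρ2 : ∀ x, ρ2 (x + 1) = ρ2 x)
    (pθ1 : ∀ x, θ1 (x + 1) = θ1 x) (pθ2 : ∀ x, θ2 (x + 1) = θ2 x)
    (oρ1 : ∀ x, ρ1 (-x) = -ρ1 x) (eρ2 : ∀ x, ρ2 (-x) = ρ2 x)
    (eθ1 : ∀ x, θ1 (-x) = θ1 x) (eθ2 : ∀ x, θ2 (-x) = θ2 x)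
    (hE : ∀ x, deriv ρ1 x ^ 2 + ρ1 x ^ 2 * deriv θ1 x ^ 2 + deriv ρ2 x ^ 2
      + ρ2 x ^ 2 * deriv θ2 x ^ 2 = E x)
    (hF : ∀ x, κ1 * (ρ1 x ^ 2 * deriv θ1 x) + κ2 * (ρ2 x ^ 2 * deriv θ2 x) = F x)
    (hG : ∀ x, κ1 ^ 2 * ρ1 x ^ 2 + κ2 ^ 2 * ρ2 x ^ 2 = G x) :
    ∃ Φ : ℝ × ℝ → EuclideanSpace ℝ (Fin 4),
      ContDiff ℝ ∞ Φ ∧ (∀ p : ℝ × ℝ, Φ (p.1 + 1, p.2) = Φ p) ∧
      (∀ p : ℝ × ℝ, Φ (-p.1, p.2 + 1) = Φ p) ∧
      ∀ p : ℝ × ℝ,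
        inner ℝ (fderiv ℝ Φ p (1, 0)) (fderiv ℝ Φ p (1, 0)) = E p.1 ∧
        inner ℝ (fderiv ℝ Φ p (1, 0)) (fderiv ℝ Φ p (0, 1)) = F p.1 ∧
        inner ℝ (fderiv ℝ Φ p (0, 1)) (fderiv ℝ Φ p (0, 1)) = G p.1 := by
  have dρ1 : Differentiable ℝ ρ1 := hρ1.differentiable (by simp)
  have dθ1 : Differentiable ℝ θ1 := hθ1.differentiable (by simp)
  have dρ2 : Differentiable ℝ ρ2 := hρ2.differentiable (by simp)
  have dθ2 : Differentiable ℝ θ2 := hθ2.differentiable (by simp)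
  set b1 : ℝ → ℝ := fun x => ρ1 x * Real.cos (θ1 x) with hb1
  set b2 : ℝ → ℝ := fun x => ρ1 x * Real.sin (θ1 x) with hb2
  set d1 : ℝ → ℝ := fun x => ρ2 x * Real.cos (θ2 x) with hd1
  set d2 : ℝ → ℝ := fun x => ρ2 x * Real.sin (θ2 x) with hd2
  have cb1 : ContDiff ℝ ∞ b1 := by rw [hb1]; fun_prop
  have cb2 : ContDiff ℝ ∞ b2 := by rw [hb2]; fun_prop
  have cd1 : ContDiff ℝ ∞ d1 := by rw [hd1]; fun_prop
  have cd2 : ContDiff ℝ ∞ d2 := by rw [hd2]; fun_prop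
  have pb1 : ∀ x, b1 (x + 1) = b1 x := by
    intro x; simp only [hb1, pρ1, pθ1]
  have pb2 : ∀ x, b2 (x + 1) = b2 x := by
    intro x; simp only [hb2, pρ1, pθ1]
  have pd1 : ∀ x, d1 (x + 1) = d1 x := by
    intro x; simp only [hd1, pρ2, pθ2]
  have pd2 : ∀ x, d2 (x + 1) = d2 x := by
    intro x; simp only [hd2, pρ2, pθ2]
  have ob1 : ∀ x, b1 (-x) = -b1 x := by
    intro x; simp only [hb1, oρ1, eθ1]; ring
  have ob2 : ∀ x, b2 (-x) = -b2 x := by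
    intro x; simp only [hb2, oρ1, eθ1]; ring
  have ed1 : ∀ x, d1 (-x) = d1 x := by
    intro x; simp only [hd1, eρ2, eθ2]
  have ed2 : ∀ x, d2 (-x) = d2 x := by
    intro x; simp only [hd2, eρ2, eθ2]
  refine ⟨Imm.equivMap κ1 κ2 b1 b2 d1 d2,
    Imm.contDiff_equivMap _ _ b1 b2 d1 d2 cb1 cb2 cd1 cd2, ?_, ?_, ?_⟩
  · intro p
    simp only [Imm.equivMap, Imm.compC, Imm.compS, pb1, pb2, pd1, pd2]
  · intro p
    simp only [Imm.equivMap, Imm.compC, Imm.compS, ob1, ob2, ed1, ed2, c1, s1, c2, s2]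
    congr 1
    ext i
    fin_cases i <;> simp
  · intro p
    obtain ⟨h1, h2, h3⟩ := Imm.equivMap_metric κ1 κ2 b1 b2 d1 d2 cb1 cb2 cd1 cd2 p
    have hs1 := Real.cos_sq_add_sin_sq (θ1 p.1)
    have hs2 := Real.cos_sq_add_sin_sq (θ2 p.1)
    have eb1 := Imm.deriv_polar_cos ρ1 θ1 dρ1 dθ1 p.1
    have eb2 := Imm.deriv_polar_sin ρ1 θ1 dρ1 dθ1 p.1
    have ed1' := Imm.deriv_polar_cos ρ2 θ2 dρ2 dθ2 p.1
    have ed2' := Imm.deriv_polar_sin ρ2 θ2 dρ2 dθ2 p.1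
    refine ⟨?_, ?_, ?_⟩
    · rw [h1, ← hE p.1]
      simp only [hb1, hb2, hd1, hd2]
      rw [eb1, eb2, ed1', ed2']
      linear_combination (deriv ρ1 p.1 ^ 2 + ρ1 p.1 ^ 2 * deriv θ1 p.1 ^ 2) * hs1
        + (deriv ρ2 p.1 ^ 2 + ρ2 p.1 ^ 2 * deriv θ2 p.1 ^ 2) * hs2
    · rw [h2, ← hF p.1]
      simp only [hb1, hb2, hd1, hd2]
      rw [eb1, eb2, ed1', ed2']
      linear_combination (κ1 * (ρ1 p.1 ^ 2 * deriv θ1 p.1)) * hs1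
        + (κ2 * (ρ2 p.1 ^ 2 * deriv θ2 p.1)) * hs2
    · rw [h3, ← hG p.1]
      simp only [hb1, hb2, hd1, hd2]
      linear_combination (κ1 ^ 2 * ρ1 p.1 ^ 2) * hs1 + (κ2 ^ 2 * ρ2 p.1 ^ 2) * hs2

/-- The profile reduction for abstract frequencies. -/
theorem pl_core (E F G g W : ℝ → ℝ) (κ1 κ2 : ℝ) (hκ1ne : κ1 ≠ 0) (hκ2ne : κ2 ≠ 0)
    (c1 : ∀ y : ℝ, Real.cos (κ1 * (y + 1)) = -Real.cos (κ1 * y))
    (s1 : ∀ y : ℝ, Real.sin (κ1 * (y + 1)) = -Real.sin (κ1 * y))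
    (c2 : ∀ y : ℝ, Real.cos (κ2 * (y + 1)) = Real.cos (κ2 * y))
    (s2 : ∀ y : ℝ, Real.sin (κ2 * (y + 1)) = Real.sin (κ2 * y))
    (Θ D : ℝ → ℝ)
    (hF : ContDiff ℝ ∞ F) (hG : ContDiff ℝ ∞ G) (hg : ContDiff ℝ ∞ g)
    (pF : ∀ x, F (x + 1) = F x) (pG : ∀ x, G (x + 1) = G x) (pg : ∀ x, g (x + 1) = g x)
    (oF : ∀ x, F (-x) = -F x) (eG : ∀ x, G (-x) = G x) (eg : ∀ x, g (-x) = g x)
    (hGpos : ∀ x, 0 < G x) (hgG : ∀ x, g x ^ 2 = G x) (hW : ∀ x, W x = E x - F x ^ 2 / G x)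
    (hΘ : ContDiff ℝ ∞ Θ) (hD : ContDiff ℝ ∞ D)
    (oΘ : ∀ x, Θ (-x) = -Θ x) (oD : ∀ x, D (-x) = -D x)
    (pΘ : ∀ x, Θ (x + 1) = Θ x) (pD : ∀ x, D (x + 1) = D x)
    (hEQ : ProfEq g W κ1 κ2 Θ D) :
    ∃ Φ : ℝ × ℝ → EuclideanSpace ℝ (Fin 4),
      ContDiff ℝ ∞ Φ ∧ (∀ p : ℝ × ℝ, Φ (p.1 + 1, p.2) = Φ p) ∧
      (∀ p : ℝ × ℝ, Φ (-p.1, p.2 + 1) = Φ p) ∧
      ∀ p : ℝ × ℝ,
        inner ℝ (fderiv ℝ Φ p (1, 0)) (fderiv ℝ Φ p (1, 0)) = E p.1 ∧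
        inner ℝ (fderiv ℝ Φ p (1, 0)) (fderiv ℝ Φ p (0, 1)) = F p.1 ∧
        inner ℝ (fderiv ℝ Φ p (0, 1)) (fderiv ℝ Φ p (0, 1)) = G p.1 := by
  have hGne : ∀ x, G x ≠ 0 := fun x => (hGpos x).ne'
  have dΘ : Differentiable ℝ Θ := hΘ.differentiable (by simp)
  have dg : Differentiable ℝ g := hg.differentiable (by simp)
  set φ : ℝ → ℝ := fun x => F x / G x with hφ
  have sφ : ContDiff ℝ ∞ φ := hF.div hG hGne
  set u1 : ℝ → ℝ := fun x => κ1 * (φ x + Real.cos (Θ x) ^ 2 * D x) with hu1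
  set u2 : ℝ → ℝ := fun x => κ2 * (φ x - Real.sin (Θ x) ^ 2 * D x) with hu2
  have su1 : ContDiff ℝ ∞ u1 := by rw [hu1]; fun_prop
  have su2 : ContDiff ℝ ∞ u2 := by rw [hu2]; fun_prop
  have ou1 : ∀ x, u1 (-x) = -u1 x := by
    intro x
    simp only [hu1, hφ, oF, eG, oΘ, oD, Real.cos_neg]
    ring
  have ou2 : ∀ x, u2 (-x) = -u2 x := by
    intro x
    simp only [hu2, hφ, oF, eG, oΘ, oD, Real.sin_neg]
    ring
  have pu1 : ∀ x, u1 (x + 1) = u1 x := by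
    intro x
    simp only [hu1, hφ, pF, pG, pΘ, pD]
  have pu2 : ∀ x, u2 (x + 1) = u2 x := by
    intro x
    simp only [hu2, hφ, pF, pG, pΘ, pD]
  set ρ1 : ℝ → ℝ := fun x => g x * Real.sin (Θ x) / κ1 with hρ1
  set ρ2 : ℝ → ℝ := fun x => g x * Real.cos (Θ x) / κ2 with hρ2
  have sρ1 : ContDiff ℝ ∞ ρ1 := by rw [hρ1]; fun_prop
  have sρ2 : ContDiff ℝ ∞ ρ2 := by rw [hρ2]; fun_prop
  have dρ1 : ∀ x, deriv ρ1 x
      = (deriv g x * Real.sin (Θ x) + g x * (Real.cos (Θ x) * deriv Θ x)) / κ1 := by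
    intro x
    have h : HasDerivAt ρ1
        ((deriv g x * Real.sin (Θ x) + g x * (Real.cos (Θ x) * deriv Θ x)) / κ1) x :=
      (((dg x).hasDerivAt).mul ((dΘ x).hasDerivAt.sin)).div_const κ1
    exact h.deriv
  have dρ2 : ∀ x, deriv ρ2 x
      = (deriv g x * Real.cos (Θ x) + g x * (-Real.sin (Θ x) * deriv Θ x)) / κ2 := by
    intro x
    have h : HasDerivAt ρ2
        ((deriv g x * Real.cos (Θ x) + g x * (-Real.sin (Θ x) * deriv Θ x)) / κ2) x :=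
      (((dg x).hasDerivAt).mul ((dΘ x).hasDerivAt.cos)).div_const κ2
    exact h.deriv
  have dθ1 : deriv (Imm.prim u1) = u1 := Imm.deriv_prim u1 su1.continuous
  have dθ2 : deriv (Imm.prim u2) = u2 := Imm.deriv_prim u2 su2.continuous
  refine pl_polar E F G ρ1 (Imm.prim u1) ρ2 (Imm.prim u2) κ1 κ2 c1 s1 c2 s2 sρ1
    (Imm.contDiff_prim u1 su1) sρ2
    (Imm.contDiff_prim u2 su2) ?_ ?_ (pl_prim_periodic u1 su1.continuous ou1 pu1)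
    (pl_prim_periodic u2 su2.continuous ou2 pu2) ?_ ?_ (pl_prim_even u1 ou1)
    (pl_prim_even u2 ou2) ?_ ?_ ?_
  · intro x; simp only [hρ1, pg, pΘ]
  · intro x; simp only [hρ2, pg, pΘ]
  · intro x; simp only [hρ1, eg, oΘ, Real.sin_neg]; ring
  · intro x; simp only [hρ2, eg, oΘ, Real.cos_neg]
  · intro x
    have hsc := Real.sin_sq_add_cos_sq (Θ x)
    have hq := hEQ x
    unfold Qform at hq
    have hw := hW x
    have hgg := hgG x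
    have hG0 := hGne x
    rw [dρ1, dρ2, dθ1, dθ2]
    simp only [hρ1, hρ2, hu1, hu2, hφ]
    have e1 : E x = W x + F x ^ 2 / G x := by rw [hw]; ring
    rw [e1, ← hq, ← hgg]
    have hg0 : g x ≠ 0 := by
      intro h0
      rw [h0] at hgg
      exact hG0 (by rw [← hgg]; ring)
    rw [← hgg] at hG0
    field_simp
    linear_combination (F x ^ 2 * κ1 ^ 2 * κ2 ^ 2 + g x ^ 4 * Real.cos (Θ x) ^ 2 * Real.sin (Θ x) ^ 2 * D x ^ 2 * κ1 ^ 2 * κ2 ^ 2) * hsc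
  · intro x
    have hsc := Real.sin_sq_add_cos_sq (Θ x)
    have hgg := hgG x
    have hG0 := hGne x
    rw [dθ1, dθ2]
    simp only [hρ1, hρ2, hu1, hu2, hφ]
    have hg0 : g x ≠ 0 := by
      intro h0
      rw [h0] at hgg
      exact hG0 (by rw [← hgg]; ring)
    rw [← hgg]
    field_simp
    linear_combination (F x) * hsc
  · intro x
    have hsc := Real.sin_sq_add_cos_sq (Θ x)
    have hgg := hgG x
    simp only [hρ1, hρ2]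
    field_simp
    linear_combination (g x ^ 2) * hsc + hgg

theorem exists_klein_of_profile (E F G g W : ℝ → ℝ) (n : ℕ) (hn : 1 ≤ n) (Θ D : ℝ → ℝ)
    (hF : ContDiff ℝ ∞ F) (hG : ContDiff ℝ ∞ G) (hg : ContDiff ℝ ∞ g)
    (pF : ∀ x, F (x + 1) = F x) (pG : ∀ x, G (x + 1) = G x) (pg : ∀ x, g (x + 1) = g x)
    (oF : ∀ x, F (-x) = -F x) (eG : ∀ x, G (-x) = G x) (eg : ∀ x, g (-x) = g x)
    (hGpos : ∀ x, 0 < G x) (hgG : ∀ x, g x ^ 2 = G x) (hW : ∀ x, W x = E x - F x ^ 2 / G x)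
    (hΘ : ContDiff ℝ ∞ Θ) (hD : ContDiff ℝ ∞ D)
    (oΘ : ∀ x, Θ (-x) = -Θ x) (oD : ∀ x, D (-x) = -D x)
    (pΘ : ∀ x, Θ (x + 1) = Θ x) (pD : ∀ x, D (x + 1) = D x)
    (hEQ : ProfEq g W ((2 * (n : ℝ) + 1) * Real.pi) (2 * (n : ℝ) * Real.pi) Θ D) :
    ∃ Φ : ℝ × ℝ → EuclideanSpace ℝ (Fin 4),
      ContDiff ℝ ∞ Φ ∧ (∀ p : ℝ × ℝ, Φ (p.1 + 1, p.2) = Φ p) ∧
      (∀ p : ℝ × ℝ, Φ (-p.1, p.2 + 1) = Φ p) ∧
      ∀ p : ℝ × ℝ,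
        inner ℝ (fderiv ℝ Φ p (1, 0)) (fderiv ℝ Φ p (1, 0)) = E p.1 ∧
        inner ℝ (fderiv ℝ Φ p (1, 0)) (fderiv ℝ Φ p (0, 1)) = F p.1 ∧
        inner ℝ (fderiv ℝ Φ p (0, 1)) (fderiv ℝ Φ p (0, 1)) = G p.1 := by
  have hπ := Real.pi_pos
  have hn' : (1 : ℝ) ≤ (n : ℝ) := by exact_mod_cast hn
  have hκ1pos : 0 < (2 * (n : ℝ) + 1) * Real.pi := by positivity
  have hκ2pos : 0 < 2 * (n : ℝ) * Real.pi := by positivity
  refine pl_core E F G g W _ _ hκ1pos.ne' hκ2pos.ne' ?_ ?_ ?_ ?_ Θ D hF hG hg pF pG pg oF eG eg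
    hGpos hgG hW hΘ hD oΘ oD pΘ pD hEQ
  · intro y
    have e : (2 * (n : ℝ) + 1) * Real.pi * (y + 1)
        = (2 * (n : ℝ) + 1) * Real.pi * y + (n : ℝ) * (2 * Real.pi) + Real.pi := by ring
    rw [e, Real.cos_add_pi, Real.cos_add_nat_mul_two_pi]
  · intro y
    have e : (2 * (n : ℝ) + 1) * Real.pi * (y + 1)
        = (2 * (n : ℝ) + 1) * Real.pi * y + (n : ℝ) * (2 * Real.pi) + Real.pi := by ring
    rw [e, Real.sin_add_pi, Real.sin_add_nat_mul_two_pi]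
  · intro y
    have e : 2 * (n : ℝ) * Real.pi * (y + 1)
        = 2 * (n : ℝ) * Real.pi * y + (n : ℝ) * (2 * Real.pi) := by ring
    rw [e, Real.cos_add_nat_mul_two_pi]
  · intro y
    have e : 2 * (n : ℝ) * Real.pi * (y + 1)
        = 2 * (n : ℝ) * Real.pi * y + (n : ℝ) * (2 * Real.pi) := by ring
    rw [e, Real.sin_add_nat_mul_two_pi]

end Vale.Agent.H55.KB
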