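import Vale.Agent.H55.KB.Defs
import Vale.Agent.H55.Primitive

/-!
For large frequencies the quadratic form `Qform` is small for bounded slopes.

TASK KB-SMALL (done; the statement is exactly that of the stub).
`g`, `deriv g` are continuous and `1`-periodic, hence bounded: `|g x| ≤ Mg`, `|deriv g x| ≤ M'`;
`W` is continuous, positive and `1`-periodic, hence `W x ≥ δ > 0` (see
`Vale.Agent.H55.Imm.exists_pos_lower_bound`, `exists_upper_bound` in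
`Vale/Agent/H55/Primitive.lean`, which may be imported; `deriv g` is `1`-periodic by
`deriv_comp_add_const`).  For `|p| ≤ P` (if `P < 0` there is nothing to prove) and
`κ1 ≥ κ2 = 2 n π ≥ n > 0`:
`Qform g κ1 κ2 x θ p ≤ 2 * (M' + Mg * |P|) ^ 2 / κ2 ^ 2 ≤ 2 * (M' + Mg * |P|) ^ 2 / n ^ 2`
(each bracket is bounded by `M' + Mg * |P|` in absolute value as `|sin|, |cos| ≤ 1`).
Choose `N₀ ≥ 1` with `2 * (M' + Mg * |P|) ^ 2 / N₀ ^ 2 < δ`.
-/

namespace Vale.Agent.H55.KB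

open scoped ContDiff

/-- Each bracket of `Qform` is bounded by `M' + Mg * |P|`. -/
theorem sm_bracket (a b s c p M' Mg P : ℝ) (ha : |a| ≤ M') (hb : |b| ≤ Mg) (hs : |s| ≤ 1)
    (hc : |c| ≤ 1) (hp : |p| ≤ |P|) : |a * s + b * c * p| ≤ M' + Mg * |P| := by
  have hM'0 : 0 ≤ M' := le_trans (abs_nonneg _) ha
  have hMg0 : 0 ≤ Mg := le_trans (abs_nonneg _) hb
  calc |a * s + b * c * p| ≤ |a * s| + |b * c * p| := abs_add_le _ _
    _ = |a| * |s| + |b| * |c| * |p| := by rw [abs_mul, abs_mul, abs_mul]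
    _ ≤ M' * 1 + Mg * 1 * |P| := by
        have h1 : |a| * |s| ≤ M' * 1 := mul_le_mul ha hs (abs_nonneg _) hM'0
        have h2 : |b| * |c| ≤ Mg * 1 := mul_le_mul hb hc (abs_nonneg _) hMg0
        have h3 : |b| * |c| * |p| ≤ Mg * 1 * |P| :=
          mul_le_mul h2 hp (abs_nonneg _) (by linarith)
        linarith
    _ = M' + Mg * |P| := by ring

theorem exists_small (g W : ℝ → ℝ) (hd : Data g W) (P : ℝ) :
    ∃ N₀ : ℕ, 1 ≤ N₀ ∧ ∀ n : ℕ, N₀ ≤ n →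
      Small g W ((2 * (n : ℝ) + 1) * Real.pi) (2 * (n : ℝ) * Real.pi) P := by
  have hgc : Continuous g := hd.sg.continuous
  have hdc : Continuous (deriv g) := hd.sg.continuous_deriv (by simp)
  have hdp : ∀ x, deriv g (x + 1) = deriv g x := by
    intro x
    have h1 : (fun y => g (y + 1)) = g := funext hd.pg
    have h2 := deriv_comp_add_const g 1 x
    rw [h1] at h2
    exact h2.symm
  obtain ⟨Mg, hMg⟩ := Imm.exists_upper_bound (fun x => |g x|) hgc.abs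
    (fun x => by simp only [hd.pg])
  obtain ⟨M', hM'⟩ := Imm.exists_upper_bound (fun x => |deriv g x|) hdc.abs
    (fun x => by simp only [hdp])
  obtain ⟨δ, hδ, hWδ⟩ := Imm.exists_pos_lower_bound W hd.sW.continuous hd.pW hd.Wpos
  have hMg0 : 0 ≤ Mg := le_trans (abs_nonneg _) (hMg 0)
  have hM'0 : 0 ≤ M' := le_trans (abs_nonneg _) (hM' 0)
  obtain ⟨C, hC⟩ : ∃ C : ℝ, C = M' + Mg * |P| := ⟨_, rfl⟩
  have hC0 : 0 ≤ C := by
    rw [hC]
    positivity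
  refine ⟨⌈2 * C ^ 2 / δ⌉₊ + 1, by omega, ?_⟩
  intro n hn x θ p hp
  have hnR : 2 * C ^ 2 / δ < (n : ℝ) := by
    have h1 : 2 * C ^ 2 / δ ≤ (⌈2 * C ^ 2 / δ⌉₊ : ℝ) := Nat.le_ceil _
    have h2 : ((⌈2 * C ^ 2 / δ⌉₊ + 1 : ℕ) : ℝ) ≤ (n : ℝ) := by exact_mod_cast hn
    push_cast at h2
    linarith
  have hn1 : (1 : ℝ) ≤ n := by
    have h1 : 1 ≤ n := by omega
    exact_mod_cast h1
  have hnpos : (0 : ℝ) < n := by linarith
  have hpi : (3 : ℝ) < Real.pi := Real.pi_gt_three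
  have hk2 : (n : ℝ) ≤ 2 * (n : ℝ) * Real.pi := by nlinarith
  have hk1 : (n : ℝ) ≤ (2 * (n : ℝ) + 1) * Real.pi := by nlinarith
  have hκ1 : (n : ℝ) ^ 2 ≤ ((2 * (n : ℝ) + 1) * Real.pi) ^ 2 :=
    pow_le_pow_left₀ hnpos.le hk1 2
  have hκ2 : (n : ℝ) ^ 2 ≤ (2 * (n : ℝ) * Real.pi) ^ 2 :=
    pow_le_pow_left₀ hnpos.le hk2 2
  have hn2 : (0 : ℝ) < (n : ℝ) ^ 2 := by positivity
  have hpP : |p| ≤ |P| := le_trans hp (le_abs_self P)
  have hsin : |Real.sin θ| ≤ 1 := Real.abs_sin_le_one θ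
  have hcos : |Real.cos θ| ≤ 1 := Real.abs_cos_le_one θ
  have hb1 : |deriv g x * Real.sin θ + g x * Real.cos θ * p| ≤ C := by
    rw [hC]
    exact sm_bracket _ _ _ _ _ _ _ _ (hM' x) (hMg x) hsin hcos hpP
  have hb2 : |deriv g x * Real.cos θ - g x * Real.sin θ * p| ≤ C := by
    have h1 : deriv g x * Real.cos θ - g x * Real.sin θ * p
        = deriv g x * Real.cos θ + g x * Real.sin θ * (-p) := by ring
    rw [h1, hC]
    exact sm_bracket _ _ _ _ _ _ _ _ (hM' x) (hMg x) hcos hsin (by rw [abs_neg]; exact hpP)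
  have hs1 : (deriv g x * Real.sin θ + g x * Real.cos θ * p) ^ 2 ≤ C ^ 2 :=
    sq_le_sq' (by linarith [(abs_le.mp hb1).1]) (abs_le.mp hb1).2
  have hs2 : (deriv g x * Real.cos θ - g x * Real.sin θ * p) ^ 2 ≤ C ^ 2 :=
    sq_le_sq' (by linarith [(abs_le.mp hb2).1]) (abs_le.mp hb2).2
  have hC2 : 0 ≤ C ^ 2 := sq_nonneg C
  have hq1 : (deriv g x * Real.sin θ + g x * Real.cos θ * p) ^ 2
      / ((2 * (n : ℝ) + 1) * Real.pi) ^ 2 ≤ C ^ 2 / (n : ℝ) ^ 2 :=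
    div_le_div₀ hC2 hs1 hn2 hκ1
  have hq2 : (deriv g x * Real.cos θ - g x * Real.sin θ * p) ^ 2
      / (2 * (n : ℝ) * Real.pi) ^ 2 ≤ C ^ 2 / (n : ℝ) ^ 2 :=
    div_le_div₀ hC2 hs2 hn2 hκ2
  have hfin : 2 * (C ^ 2 / (n : ℝ) ^ 2) < δ := by
    have h1 : 2 * C ^ 2 < δ * (n : ℝ) := by
      rw [div_lt_iff₀ hδ] at hnR
      linarith
    have h2 : δ * (n : ℝ) ≤ δ * (n : ℝ) ^ 2 := by
      apply mul_le_mul_of_nonneg_left _ hδ.le
      nlinarith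
    have h3 : 2 * (C ^ 2 / (n : ℝ) ^ 2) = 2 * C ^ 2 / (n : ℝ) ^ 2 := by ring
    rw [h3, div_lt_iff₀ hn2]
    linarith
  have hW := hWδ x
  unfold Qform
  linarith

end Vale.Agent.H55.KB
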