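import Vale.Agent.H55.KB.Local
import Vale.Agent.H55.KB.Small
import Vale.Agent.H55.KB.Glue
import Vale.Agent.H55.KB.Polar

/-!
Smooth isometric immersions into `ℝ⁴` of the Klein bottle
`ℝ² / ⟨(x, y) ↦ (x + 1, y), (x, y) ↦ (-x, y + 1)⟩` with an `S¹`-invariant metric
`E(x) dx² + 2 F(x) dx dy + G(x) dy²`.
-/

namespace Vale.Agent.H55.KB

open scoped ContDiff

theorem klein_immersion (E F G : ℝ → ℝ)
    (hE : ContDiff ℝ ∞ E) (hF : ContDiff ℝ ∞ F) (hG : ContDiff ℝ ∞ G)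
    (pE : ∀ x, E (x + 1) = E x) (pF : ∀ x, F (x + 1) = F x) (pG : ∀ x, G (x + 1) = G x)
    (eE : ∀ x, E (-x) = E x) (oF : ∀ x, F (-x) = -F x) (eG : ∀ x, G (-x) = G x)
    (hGpos : ∀ x, 0 < G x) (hdet : ∀ x, 0 < E x * G x - F x ^ 2) :
    ∃ Φ : ℝ × ℝ → EuclideanSpace ℝ (Fin 4),
      ContDiff ℝ ∞ Φ ∧ (∀ p : ℝ × ℝ, Φ (p.1 + 1, p.2) = Φ p) ∧
      (∀ p : ℝ × ℝ, Φ (-p.1, p.2 + 1) = Φ p) ∧
      ∀ p : ℝ × ℝ,
        inner ℝ (fderiv ℝ Φ p (1, 0)) (fderiv ℝ Φ p (1, 0)) = E p.1 ∧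
        inner ℝ (fderiv ℝ Φ p (1, 0)) (fderiv ℝ Φ p (0, 1)) = F p.1 ∧
        inner ℝ (fderiv ℝ Φ p (0, 1)) (fderiv ℝ Φ p (0, 1)) = G p.1 := by
  set g : ℝ → ℝ := fun x => Real.sqrt (G x) with hg
  set W : ℝ → ℝ := fun x => E x - F x ^ 2 / G x with hW
  have hd : Data g W :=
    { sg := hG.sqrt (fun x => (hGpos x).ne')
      sW := hE.sub ((hF.pow 2).div hG (fun x => (hGpos x).ne'))
      pg := fun x => by simp only [hg, pG]
      pW := fun x => by simp only [hW, pE, pF, pG]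
      eg := fun x => by simp only [hg, eG]
      eW := fun x => by simp only [hW, eE, oF, eG, neg_sq]
      gpos := fun x => Real.sqrt_pos.mpr (hGpos x)
      Wpos := fun x => by
        have h := hGpos x
        have h2 := hdet x
        have e : E x - F x ^ 2 / G x = (E x * G x - F x ^ 2) / G x := by
          field_simp
        simp only [hW]
        rw [e]
        exact div_pos h2 h }
  obtain ⟨P₀, -, hloc⟩ := exists_local_profile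
  obtain ⟨N₀, hN₀, hsmall⟩ := exists_small g W hd P₀
  have hs := hsmall N₀ le_rfl
  have hN₀' : (1 : ℝ) ≤ (N₀ : ℝ) := by exact_mod_cast hN₀
  have hκ1 : 0 < (2 * (N₀ : ℝ) + 1) * Real.pi := by positivity
  have hκ2 : 0 < 2 * (N₀ : ℝ) * Real.pi := by
    have := Real.pi_pos
    positivity
  obtain ⟨ΘA, DA, sΘA, sDA, oΘA, oDA, hA1, hA2, hAeq⟩ := hloc g W _ _ hd hκ1 hκ2 hs
  obtain ⟨ΘB, DB, sΘB, sDB, oΘB, oDB, hB1, hB2, hBeq⟩ :=
    hloc (shiftHalf g) (shiftHalf W) _ _ hd.shiftHalf hκ1 hκ2 hs.shiftHalf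
  obtain ⟨Θ, D, sΘ, sD, oΘ, oD, pΘ, pD, hEQ⟩ :=
    exists_profile_of_local g W _ _ hd ΘA DA ΘB DB sΘA sDA sΘB sDB oΘA oDA oΘB oDB
      hA1 hA2 hB1 hB2 hAeq hBeq
  exact exists_klein_of_profile E F G g W N₀ hN₀ Θ D hF hG hd.sg pF pG hd.pg oF eG hd.eg hGpos
    (fun x => Real.sq_sqrt (hGpos x).le) (fun x => rfl) sΘ sD oΘ oD pΘ pD hEQ

end Vale.Agent.H55.KB
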